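import Vale.Agent.P088.R2.H961.S.B2
import Vale.Agent.P088.R2.H961.B.En
import Vale.Agent.P088.R2.H593.W.Core3

/-!
# The exact identity and the lower bounds for the model `W = E |q|² / 2 + φ(p)`, on functions

Instances of helper593's `Pos`, `PM`, `Inv`; `R = ∑ D_i K_i`; `c = B₂ f` for test functions `c`.
-/

open MeasureTheory Set
open scoped ContDiff
open Vale.Agent.P088.HY.H593W

noncomputable section

namespace Vale.Agent.P088.R2.H961.S

open Vale.Agent.P088.R2.H961.B (In mS ip_In In_mono mS_fn)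

/-! ## Positive matrices are bounded by their trace -/

section
variable {ι : Type*} [Fintype ι]

theorem psd_minor {M : ι → ι → ℝ} (hs : ∀ i j, M i j = M j i)
    (hM : ∀ x : ι → ℝ, 0 ≤ ∑ i, ∑ j, M i j * x i * x j) [DecidableEq ι] :
    (∀ i, 0 ≤ M i i) ∧ ∀ i j, M i j ^ 2 ≤ M i i * M j j := by
  have h0 : ∀ i, 0 ≤ M i i := fun i => by
    have := hM (Pi.single i 1)
    simpa [Pi.single_apply] using this
  refine ⟨h0, fun i j => ?_⟩
  by_cases hij : i = j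
  · subst hij; rw [sq]
  have h2 : ∀ s t : ℝ, 0 ≤ M i i * s ^ 2 + 2 * M i j * s * t + M j j * t ^ 2 := by
    intro s t
    have h := hM (Pi.single i s + Pi.single j t)
    have e : ∑ a, ∑ b, M a b * (Pi.single i s + Pi.single j t : ι → ℝ) a *
        (Pi.single i s + Pi.single j t : ι → ℝ) b =
        M i i * s ^ 2 + 2 * M i j * s * t + M j j * t ^ 2 := by
      have e1 : ∀ a b, M a b * (Pi.single i s + Pi.single j t : ι → ℝ) a *
          (Pi.single i s + Pi.single j t : ι → ℝ) b =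
          (if a = i then (if b = i then M a b * s * s else 0) else 0) +
          (if a = i then (if b = j then M a b * s * t else 0) else 0) +
          (if a = j then (if b = i then M a b * t * s else 0) else 0) +
          (if a = j then (if b = j then M a b * t * t else 0) else 0) := by
        intro a b
        simp only [Pi.add_apply, Pi.single_apply]
        by_cases ha : a = i <;> by_cases hb : b = i <;> by_cases ha' : a = j <;>
          by_cases hb' : b = j <;> simp_all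
      simp only [e1, Finset.sum_add_distrib, Finset.sum_ite_irrel, Finset.sum_ite_eq',
        Finset.mem_univ, if_true, Finset.sum_const_zero]
      rw [hs j i]
      ring
    rwa [e] at h
  have hi := h0 i
  have hj := h0 j
  rcases hi.eq_or_lt with h3 | h3
  · have h4 : M i j = 0 := by
      by_contra hne
      have h5 := h2 (-(M j j + 1) / (2 * M i j)) 1
      rw [← h3] at h5
      have : 2 * M i j * (-(M j j + 1) / (2 * M i j)) = -(M j j + 1) := by field_simp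
      nlinarith
    rw [h4, ← h3]; simp
  · have h5 := h2 (-(M i j)) (M i i)
    nlinarith

theorem psd_trace {M : ι → ι → ℝ} (hs : ∀ i j, M i j = M j i)
    (hM : ∀ x : ι → ℝ, 0 ≤ ∑ i, ∑ j, M i j * x i * x j) (x : ι → ℝ) :
    ∑ i, ∑ j, M j i * x i * x j ≤ ∑ i, ∑ k, M k k * x i * x i := by
  classical
  obtain ⟨h0, h1⟩ := psd_minor hs hM
  have h2 : ∀ i j, M j i * x i * x j ≤
      (Real.sqrt (M i i) * |x i|) * (Real.sqrt (M j j) * |x j|) := by
    intro i j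
    have h3 : |M j i| ≤ Real.sqrt (M i i) * Real.sqrt (M j j) := by
      rw [← Real.sqrt_mul (h0 i), hs j i]
      exact Real.abs_le_sqrt (h1 i j)
    calc M j i * x i * x j ≤ |M j i * x i * x j| := le_abs_self _
      _ = |M j i| * (|x i| * |x j|) := by rw [abs_mul, abs_mul]; ring
      _ ≤ Real.sqrt (M i i) * Real.sqrt (M j j) * (|x i| * |x j|) := by gcongr
      _ = _ := by ring
  calc ∑ i, ∑ j, M j i * x i * x j ≤
      ∑ i, ∑ j, (Real.sqrt (M i i) * |x i|) * (Real.sqrt (M j j) * |x j|) :=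
        Finset.sum_le_sum fun i _ => Finset.sum_le_sum fun j _ => h2 i j
    _ = (∑ i, Real.sqrt (M i i) * |x i|) ^ 2 := by rw [sq, Finset.sum_mul_sum]
    _ ≤ (∑ i, Real.sqrt (M i i) ^ 2) * ∑ i, |x i| ^ 2 := Finset.sum_mul_sq_le_sq_mul_sq _ _ _
    _ = ∑ i, ∑ k, M k k * x i * x i := by
        rw [Finset.sum_mul_sum, Finset.sum_comm]
        refine Finset.sum_congr rfl fun i _ => Finset.sum_congr rfl fun k _ => ?_
        rw [Real.sq_sqrt (h0 k), sq_abs]; ring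

end

variable {ι E P : Type} [Fintype ι] [DecidableEq ι] [NormedAddCommGroup E] [NormedSpace ℝ E]
  [NormedAddCommGroup P] [NormedSpace ℝ P] {π : E →L[ℝ] P}
  [MeasurableSpace E] [BorelSpace E] [FiniteDimensional ℝ E]
  (μ : Measure E) [μ.IsAddHaarMeasure]

namespace Dat

variable (S : Dat ι π)

theorem osc_pos (he : ∀ z, 0 ≤ (S.e : E → ℝ) z) : (S.osc μ).Pos where
  p0 := ip_self_nonneg μ
  pE := ip_ml_nonneg μ he

omit [MeasurableSpace E] [BorelSpace E] [FiniteDimensional ℝ E] in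
theorem mc (f g : Mu π) (x : SW π) : ml f (ml g x) = ml g (ml f x) :=
  LinearMap.congr_fun (mlc f g) x

/-- Matrices of functions of `p`, symmetric and `≥ 0`. -/
theorem osc_PM (he : ∀ z, 0 ≤ (S.e : E → ℝ) z) {t : ι → ι → Mu π}
    (ht : ∀ i j k, ds (S.a k) (t i j) = 0) (hs : ∀ i j, t i j = t j i)
    (hp : ∀ z (x : ι → ℝ), 0 ≤ ∑ i, ∑ j, (t i j : E → ℝ) z * x i * x j) :
    (S.osc μ).PM (fun i j => ml (t i j)) where
  ad i j x y := adj_ml (μ := μ) (t i j) x y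
  TD i j k x := (LinearMap.congr_fun (S.D_ml (fun m => ht i j m) k) x).symm
  TDs i j k x := (LinearMap.congr_fun (S.Ds_ml (fun m => ht i j m) k) x).symm
  TE i j x := mc S.e (t i j) x
  t0 x := by
    change ∑ i, ∑ j, ip μ (ml (t j i) (x i)) (x j) ≤ ∑ i, ∑ k, ip μ (ml (t k k) (x i)) (x i)
    simp only [ip_In, ← map_sum]
    refine In_mono μ fun z => ?_
    simp only [B.sum_fn, mS_fn, ml_apply]
    exact psd_trace (M := fun i j => (t i j : E → ℝ) z) (fun i j => by rw [hs]) (hp z)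
      fun i => (x i).fn z
  t1 x := by
    change ∑ i, ∑ j, ip μ (ml S.e (ml (t j i) (x i))) (x j) ≤
      ∑ i, ∑ k, ip μ (ml S.e (ml (t k k) (x i))) (x i)
    simp only [ip_In, ← map_sum]
    refine In_mono μ fun z => ?_
    simp only [B.sum_fn, mS_fn, ml_apply]
    have h := psd_trace (M := fun i j => (t i j : E → ℝ) z) (fun i j => by rw [hs]) (hp z)
      fun i => (x i).fn z
    have h' := mul_le_mul_of_nonneg_left h (he z)
    rw [Finset.mul_sum, Finset.mul_sum] at h'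
    simp only [Finset.mul_sum] at h'
    refine (le_of_eq ?_).trans (h'.trans (le_of_eq ?_))
    · exact Finset.sum_congr rfl fun i _ => Finset.sum_congr rfl fun j _ => by ring
    · exact Finset.sum_congr rfl fun i _ => Finset.sum_congr rfl fun j _ => by ring
  d0 k x := ip_ml_nonneg μ (fun z => (psd_minor (M := fun i j => (t i j : E → ℝ) z)
    (fun i j => by rw [hs]) (hp z)).1 k) x
  d1 k x := by
    have : ml S.e (ml (t k k) x) = ml (S.e * t k k) x := by rw [map_mul]; rfl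
    change 0 ≤ ip μ (ml S.e (ml (t k k) x)) x
    rw [this]
    exact ip_ml_nonneg μ (fun z => mul_nonneg (he z) ((psd_minor (M := fun i j =>
      (t i j : E → ℝ) z) (fun i j => by rw [hs]) (hp z)).1 k)) x

theorem osc_PL (he : ∀ z, 0 ≤ (S.e : E → ℝ) z)
    (hp : ∀ z (x : ι → ℝ), 0 ≤ ∑ i, ∑ j, (S.l2 i j : E → ℝ) z * x i * x j) :
    (S.osc μ).PM (S.osc μ).LL :=
  S.osc_PM μ he (fun i j k => S.al2 k i j) S.l2_comm hp

theorem osc_PP (he : ∀ z, 0 ≤ (S.e : E → ℝ) z)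
    (hp : ∀ z (x : ι → ℝ), 0 ≤ ∑ i, ∑ j, (S.φ2 i j : E → ℝ) z * x i * x j) :
    (S.osc μ).PM S.PP :=
  S.osc_PM μ he (fun i j k => S.aφ2 k i j) S.φ2_comm hp

theorem osc_hC (i j : ι) (x : SW π) : (S.osc μ).E ((S.osc μ).C i j x) =
    (2 : ℝ) • (S.osc μ).E (S.PP i j x) + (S.osc μ).LL i j ((S.osc μ).BB x) := by
  have h1 : (S.osc μ).BB x = S.BB x := by
    rw [Osc.BB_apply, Osc.N_apply]
    rw [Dat.BB, LinearMap.add_apply, LinearMap.sum_apply]
    rfl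
  rw [h1]
  change ml S.e (((2 : ℝ) • S.PP i j + ml (S.l2 i j * S.e') * S.BB) x) =
    (2 : ℝ) • ml S.e (S.PP i j x) + ml (S.l2 i j) (S.BB x)
  rw [LinearMap.add_apply, map_add, LinearMap.smul_apply, map_smul]
  congr 1
  change (ml S.e * ml (S.l2 i j * S.e')) (S.BB x) = _
  rw [← map_mul]
  have : S.e * (S.l2 i j * S.e') = S.l2 i j := by
    rw [mul_left_comm, S.inv, mul_one]
  rw [this]

theorem osc_inv : (S.osc μ).Inv S.EI where
  l x := LinearMap.congr_fun S.EE_EI x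
  r x := LinearMap.congr_fun S.EI_EE x

/-- `∑ D_i K_i`. -/
def Ro : Op π := ∑ i, S.D i * S.K i

/-- `∑ D_i^* K_i^*`. -/
def Rso : Op π := ∑ i, S.Ds i * S.Ks i

/-- `∑ K_i²`. -/
def K2o : Op π := ∑ i, S.K i * S.K i

/-- `∑ (K_i^*)²`. -/
def K2s : Op π := ∑ i, S.Ks i * S.Ks i

theorem osc_D2 (x : SW π) : (S.osc μ).D2 x = S.D2 x := by
  rw [Osc.D2_apply, Dat.D2, LinearMap.sum_apply]; rfl

theorem osc_Ds2 (x : SW π) : (S.osc μ).Ds2 x = S.Ds2 x := by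
  rw [Osc.Ds2_apply, Dat.Ds2, LinearMap.sum_apply]; rfl

theorem osc_R (x : SW π) : (S.osc μ).R S.EI x = S.Ro x := by
  rw [Osc.R_apply, Osc.Dv_apply, Osc.LDD_apply, osc_D2, map_sum, Ro, LinearMap.sum_apply,
    Finset.smul_sum, ← Finset.sum_add_distrib]
  refine Finset.sum_congr rfl fun i _ => ?_
  have h1 : S.D i * S.v i = S.D i * S.K i - (1 / 2 : ℝ) • (S.EI * (S.L i * (S.D i * S.D2))) := by
    rw [v, mul_sub, mul_smul_comm]
    congr 2
    have h0 : S.L i * S.EI = S.EI * S.L i := mlc _ _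
    rw [← mul_assoc, ← mul_assoc, S.D_L, mul_assoc (S.L i), S.D_EI, ← mul_assoc, h0, mul_assoc,
      mul_assoc]
  have h2 := LinearMap.congr_fun h1 x
  change S.D i (S.v i x) + (1 / 2 : ℝ) • S.EI (S.L i (S.D i (S.D2 x))) = (S.D i * S.K i) x
  have h3 : S.D i (S.v i x) = (S.D i * S.K i) x - (1 / 2 : ℝ) •
      S.EI (S.L i (S.D i (S.D2 x))) := h2
  rw [h3, sub_add_cancel]

include μ in
theorem osc_Rs (x : SW π) : (S.osc μ).Rs S.EI x = S.Rso x := by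
  have h1 : ∀ y z, ip μ ((S.osc μ).R S.EI y) z = ip μ y ((S.osc μ).Rs S.EI z) := by
    intro y z
    have hI := S.osc_inv μ
    rw [Osc.R_apply, Osc.Rs_apply]
    have e1 : ip μ ((S.osc μ).Dv y) z = ip μ y ((S.osc μ).Dsvs z) := (S.osc μ).adDv y z
    have e2 : ip μ (S.EI ((S.osc μ).LDD ((S.osc μ).D2 y))) z =
        ip μ y (S.EI ((S.osc μ).LS ((S.osc μ).Ds2 z))) := by
      have a1 : ip μ (S.EI ((S.osc μ).LDD ((S.osc μ).D2 y))) z =
        ip μ ((S.osc μ).LDD ((S.osc μ).D2 y)) (S.EI z) := hI.ad _ _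
      have a2 : ip μ ((S.osc μ).LDD ((S.osc μ).D2 y)) (S.EI z) =
        ip μ ((S.osc μ).D2 y) ((S.osc μ).LS (S.EI z)) := (S.osc μ).adLDD _ _
      have a3 : ip μ ((S.osc μ).D2 y) ((S.osc μ).LS (S.EI z)) =
        ip μ y ((S.osc μ).Ds2 ((S.osc μ).LS (S.EI z))) := (S.osc μ).adD2 _ _
      rw [a1, a2, a3, ← hI.LS, ← hI.Ds2, (S.osc μ).Ds2LS]
    rw [map_add, map_smul, LinearMap.add_apply, LinearMap.smul_apply, map_add, map_smul, e1, e2]
  have h2 : ∀ y z, ip μ (S.Ro y) z = ip μ y (S.Rso z) :=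
    Adj.sum fun i _ => by
      have h3 := (S.adj_D μ i).mul (S.adj_K μ i)
      have h4 : S.Ks i * S.Ds i = S.Ds i * S.Ks i :=
        adj_eq ((S.adj_D μ i).mul (S.adj_K μ i)) ((S.adj_K μ i).mul (S.adj_D μ i))
          (S.K_D i i).symm
      rwa [h4] at h3
  have h5 : ip μ ((S.osc μ).Rs S.EI x - S.Rso x) ((S.osc μ).Rs S.EI x - S.Rso x) = 0 := by
    set d := (S.osc μ).Rs S.EI x - S.Rso x
    have e3 : ip μ d ((S.osc μ).Rs S.EI x) = ip μ d (S.Rso x) := by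
      rw [← h1, ← h2, osc_R]
    have e4 : ip μ d d = ip μ d ((S.osc μ).Rs S.EI x) - ip μ d (S.Rso x) := by
      rw [← map_sub]
    rw [e4, e3, sub_self]
  have h6 := ip_self_eq_zero μ h5
  exact sub_eq_zero.1 h6

/-- **The exact `T` identity for the model**, `S = D² + K²/4`, `R = D.K`. -/
theorem T_model (b c : SW π) :
    ip μ (S.Ds2 b + (1 / 4 : ℝ) • S.K2s b + S.Rso c) (S.Ds2 b + (1 / 4 : ℝ) • S.K2s b + S.Rso c) +
    ip μ (S.Ro b - (S.D2 c + (1 / 4 : ℝ) • S.K2o c)) (S.Ro b - (S.D2 c + (1 / 4 : ℝ) • S.K2o c)) =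
    ip μ (S.D2 b + (1 / 4 : ℝ) • S.K2o b + (2 : ℝ) • (S.osc μ).LDD c)
      (S.D2 b + (1 / 4 : ℝ) • S.K2o b + (2 : ℝ) • (S.osc μ).LDD c) +
    ip μ (S.Ro b) (S.Ro b) +
    ip μ (S.D2 c + (1 / 4 : ℝ) • S.K2o c) (S.D2 c + (1 / 4 : ℝ) • S.K2o c) +
    ip μ (S.Ro c + (2 : ℝ) • (S.osc μ).LDD c) (S.Ro c + (2 : ℝ) • (S.osc μ).LDD c) +
    (S.osc μ).Q ((S.osc μ).bp S.EI b c) c + (S.osc μ).cv c + (S.osc μ).Er S.EI b c -
    ip μ (S.K2o b) ((S.osc μ).LDD c) -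
    2 * ip μ (S.EI ((S.osc μ).LDD (S.D2 c))) ((S.osc μ).LDD c) +
    ((1 / 2) * ip μ (S.Ds2 b) (S.K2s b) + (1 / 16) * ip μ (S.K2s b) (S.K2s b) -
      (1 / 2) * ip μ (S.D2 b) (S.K2o b) - (1 / 16) * ip μ (S.K2o b) (S.K2o b)) +
    (1 / 2) * (ip μ (S.K2s b) (S.Rso c) - ip μ (S.Ro b) (S.K2o c)) := by
  have h := (S.osc_inv μ).T_eq S.K2o S.K2s b c
  simp only [osc_D2, osc_Ds2, osc_R, osc_Rs] at h
  exact h

end Dat

/-! ## Test functions `c = B₂ f` -/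

variable (F : Fram ι π)

omit [MeasurableSpace E] [BorelSpace E] [FiniteDimensional ℝ E] in
theorem dat_e (E₀ : ℝ) (hE : 0 < E₀) (l φ : P → ℝ) (cl : ContDiff ℝ ∞ l) (cφ : ContDiff ℝ ∞ φ)
    (z : E) : 0 ≤ ((F.dat E₀ hE l φ cl cφ).e : E → ℝ) z :=
  (mul_pos hE (Real.exp_pos _)).le

section
variable (hn : 3 ≤ Fintype.card ι) (E₀ : ℝ) (hE : 0 < E₀) (l φ : P → ℝ)
  (cl : ContDiff ℝ ∞ l) (cφ : ContDiff ℝ ∞ φ)
  (pl : ∀ z (x : ι → ℝ), 0 ≤ ∑ i, ∑ j, ((F.dat E₀ hE l φ cl cφ).l2 i j : E → ℝ) z * x i * x j)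
  (pφ : ∀ z (x : ι → ℝ), 0 ≤ ∑ i, ∑ j, ((F.dat E₀ hE l φ cl cφ).φ2 i j : E → ℝ) z * x i * x j)
include hn pl pφ

/-- `Q_stable` for test functions: `4 (n - 2) |E b|² ≤ Q(b, c)`. -/
theorem Q_stable_test (b : SW π) {c : E → ℝ} (cc : ContDiff ℝ ∞ c) (sc : HasCompactSupport c) :
    4 * ((Fintype.card ι : ℝ) - 2) * ip μ ((F.dat E₀ hE l φ cl cφ).EE b)
      ((F.dat E₀ hE l φ cl cφ).EE b) ≤ ((F.dat E₀ hE l φ cl cφ).osc μ).Q b (tst c cc sc) := by
  obtain ⟨f, -, hf⟩ := b2_osc F μ hn E₀ hE l φ cl cφ cc sc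
  rw [← hf]
  exact Osc.Q_stable ((F.dat E₀ hE l φ cl cφ).osc_pos μ (dat_e F E₀ hE l φ cl cφ))
    (by omega) ((F.dat E₀ hE l φ cl cφ).osc_PP μ (dat_e F E₀ hE l φ cl cφ) pφ)
    ((F.dat E₀ hE l φ cl cφ).osc_PL μ (dat_e F E₀ hE l φ cl cφ) pl)
    ((F.dat E₀ hE l φ cl cφ).osc_hC μ) b f

/-- `Q_lower` for test functions. -/
theorem Q_lower_test (b : SW π) {c : E → ℝ} (cc : ContDiff ℝ ∞ c) (sc : HasCompactSupport c) :
    ∃ f : SW π, (∀ z, π z ∉ π '' tsupport c → f.fn z = 0) ∧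
      ((F.dat E₀ hE l φ cl cφ).osc μ).B2 f = tst c cc sc ∧
      8 * ip μ ((F.dat E₀ hE l φ cl cφ).EE (((F.dat E₀ hE l φ cl cφ).osc μ).BB
          (b + (1 / 2 : ℝ) • ((F.dat E₀ hE l φ cl cφ).osc μ).vsD f)))
          (b + (1 / 2 : ℝ) • ((F.dat E₀ hE l φ cl cφ).osc μ).vsD f) +
        2 * ((Fintype.card ι : ℝ) - 2) * ∑ j, ip μ ((F.dat E₀ hE l φ cl cφ).EE
          ((F.dat E₀ hE l φ cl cφ).EE (((F.dat E₀ hE l φ cl cφ).osc μ).B2
            (((F.dat E₀ hE l φ cl cφ).osc μ).w j f))))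
          (((F.dat E₀ hE l φ cl cφ).osc μ).w j f) +
        ∑ i, ∑ j, ip μ ((F.dat E₀ hE l φ cl cφ).EE (((F.dat E₀ hE l φ cl cφ).osc μ).BB
          ((F.dat E₀ hE l φ cl cφ).D i (((F.dat E₀ hE l φ cl cφ).osc μ).w j f) -
            (F.dat E₀ hE l φ cl cφ).D j (((F.dat E₀ hE l φ cl cφ).osc μ).w i f))))
          ((F.dat E₀ hE l φ cl cφ).D i (((F.dat E₀ hE l φ cl cφ).osc μ).w j f) -
            (F.dat E₀ hE l φ cl cφ).D j (((F.dat E₀ hE l φ cl cφ).osc μ).w i f)) +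
        4 * ((Fintype.card ι : ℝ) - 2) * ((F.dat E₀ hE l φ cl cφ).osc μ).gP
          (F.dat E₀ hE l φ cl cφ).PP f +
        2 * ((Fintype.card ι : ℝ) - 2) * ((F.dat E₀ hE l φ cl cφ).osc μ).gL f ≤
      ((F.dat E₀ hE l φ cl cφ).osc μ).Q b (tst c cc sc) := by
  obtain ⟨f, h0, hf⟩ := b2_osc F μ hn E₀ hE l φ cl cφ cc sc
  refine ⟨f, h0, hf, ?_⟩
  rw [← hf]
  exact Osc.Q_lower ((F.dat E₀ hE l φ cl cφ).osc_PP μ (dat_e F E₀ hE l φ cl cφ) pφ)
    ((F.dat E₀ hE l φ cl cφ).osc_PL μ (dat_e F E₀ hE l φ cl cφ) pl)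
    ((F.dat E₀ hE l φ cl cφ).osc_hC μ) b f

end

end Vale.Agent.P088.R2.H961.S
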