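import Vale.Agent.P088.R2.H961.S.Inst2
import Mathlib.Analysis.SpecialFunctions.ExpDeriv

/-!
# Frames: `a i = ∂_{q_i}`, `b i = ∂_{p_i}`, and the data of `W = E₀ e^{2 l(p)} |q|² / 2 + φ(p)`
-/

open MeasureTheory Set
open scoped ContDiff

noncomputable section

namespace Vale.Agent.P088.R2.H961.S

variable {ι E P : Type} [Fintype ι] [DecidableEq ι] [NormedAddCommGroup E] [NormedSpace ℝ E]
  [NormedAddCommGroup P] [NormedSpace ℝ P] {π : E →L[ℝ] P}

/-- Coordinates `q` and the base point `p = π z`. -/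
structure Fram (ι : Type) [Fintype ι] [DecidableEq ι] {E P : Type} [NormedAddCommGroup E]
    [NormedSpace ℝ E] [NormedAddCommGroup P] [NormedSpace ℝ P] (π : E →L[ℝ] P) where
  a : ι → E
  b : ι → E
  q : ι → E →L[ℝ] ℝ
  aq : ∀ i j, q j (a i) = if i = j then 1 else 0
  bq : ∀ i j, q j (b i) = 0
  ap : ∀ i, π (a i) = 0
  inj : ∀ z, π z = 0 → (∀ i, q i z = 0) → z = 0

theorem ds_bs (h : P → ℝ) (ch : ContDiff ℝ ∞ h) (v : E) (z : E) :
    (ds v (bs (π := π) h ch) : E → ℝ) z = fderiv ℝ h (π z) (π v) := by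
  change fderiv ℝ (h ∘ π) z v = _
  rw [fderiv_comp z ((ch.differentiable (by simp)) _) π.differentiableAt,
    ContinuousLinearMap.fderiv]
  rfl

theorem ds_bs_zero (h : P → ℝ) (ch : ContDiff ℝ ∞ h) {v : E} (hv : π v = 0) :
    ds v (bs (π := π) h ch) = 0 := by
  ext z
  rw [ds_bs, hv, map_zero]; rfl

theorem ds_ln (q : E →L[ℝ] ℝ) (v : E) : ds v (ln (π := π) q) = algebraMap ℝ _ (q v) := by
  ext z
  change fderiv ℝ q z v = _
  rw [ContinuousLinearMap.fderiv]; rfl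

theorem cexp {E₀ t : ℝ} {l : P → ℝ} (cl : ContDiff ℝ ∞ l) :
    ContDiff ℝ ∞ fun p => E₀ * Real.exp (t * l p) :=
  contDiff_const.mul (Real.contDiff_exp.comp (contDiff_const.mul cl))

/-- The data of `W = E₀ e^{2 l(p)} |q|² / 2 + φ(p)`. -/
def Fram.dat (F : Fram ι π) (E₀ : ℝ) (hE : 0 < E₀) (l φ : P → ℝ) (cl : ContDiff ℝ ∞ l)
    (cφ : ContDiff ℝ ∞ φ) : Dat ι π where
  a := F.a
  b := F.b
  q i := ln (F.q i)
  l := bs l cl
  φ := bs φ cφ
  e := bs (fun p => E₀ * Real.exp (2 * l p)) (cexp cl)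
  e' := bs (fun p => E₀⁻¹ * Real.exp (-2 * l p)) (cexp cl)
  aq i j := by
    rw [ds_ln, F.aq]
    split <;> simp
  bq i j := by rw [ds_ln, F.bq, map_zero]
  al i := ds_bs_zero l cl (F.ap i)
  aφ i := ds_bs_zero φ cφ (F.ap i)
  inv := by
    ext z
    change (E₀ * Real.exp (2 * l (π z))) * (E₀⁻¹ * Real.exp (-2 * l (π z))) = 1
    rw [neg_mul, Real.exp_neg]
    field_simp
  ae i := ds_bs_zero _ _ (F.ap i)
  be i := by
    ext z
    have h1 := ds_bs (π := π) (fun p => E₀ * Real.exp (2 * l p)) (cexp cl) (F.b i) z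
    have h2 := ds_bs (π := π) l cl (F.b i) z
    change (ds (F.b i) (bs (π := π) (fun p => E₀ * Real.exp (2 * l p)) (cexp cl)) : E → ℝ) z =
      2 * ((ds (F.b i) (bs (π := π) l cl) : E → ℝ) z * (E₀ * Real.exp (2 * l (π z))))
    rw [h1, h2]
    have h3 := ((((cl.differentiable (by simp)) (π z)).hasFDerivAt.const_mul 2).exp).const_mul E₀
    rw [h3.fderiv]
    simp only [smul_apply, smul_eq_mul]
    ring

/-! ## Pairs of points -/

/-- `(x, y) ↦ (x + y) / 2`. -/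
def mid (ι : Type) [Fintype ι] : ((ι → ℝ) × (ι → ℝ)) →L[ℝ] (ι → ℝ) :=
  (1 / 2 : ℝ) • (ContinuousLinearMap.fst ℝ (ι → ℝ) (ι → ℝ) +
    ContinuousLinearMap.snd ℝ (ι → ℝ) (ι → ℝ))

theorem mid_apply (z : (ι → ℝ) × (ι → ℝ)) : mid ι z = (1 / 2 : ℝ) • (z.1 + z.2) := rfl

/-- The frame on pairs of points: `q = x - y`, `p = (x + y) / 2`. -/
def frV (ι : Type) [Fintype ι] [DecidableEq ι] : Fram ι (mid ι) where
  a i := (Pi.single i (1 / 2), - Pi.single i (1 / 2))
  b i := (Pi.single i 1, Pi.single i 1)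
  q i := (ContinuousLinearMap.proj i).comp (ContinuousLinearMap.fst ℝ (ι → ℝ) (ι → ℝ)) -
        (ContinuousLinearMap.proj i).comp (ContinuousLinearMap.snd ℝ (ι → ℝ) (ι → ℝ))
  aq i j := by
    change (Pi.single i (1 / 2) : ι → ℝ) j - (- Pi.single i (1 / 2) : ι → ℝ) j = _
    by_cases h : i = j
    · subst h; simp; norm_num
    · simp [Ne.symm h, h]
  bq i j := by
    change (Pi.single i 1 : ι → ℝ) j - (Pi.single i 1 : ι → ℝ) j = _
    simp
  ap i := by
    rw [mid_apply]; simp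
  inj z h1 h2 := by
    rw [mid_apply] at h1
    have h3 : z.1 + z.2 = 0 := by
      have : (1 / 2 : ℝ) ≠ 0 := by norm_num
      exact (smul_eq_zero.1 h1).resolve_left this
    have h4 : ∀ i, z.1 i - z.2 i = 0 := h2
    have h5 : ∀ i, z.1 i + z.2 i = 0 := fun i => congrFun h3 i
    have e1 : z.1 = 0 := funext fun i => by
      have := h4 i; have := h5 i; simp only [Pi.zero_apply]; linarith
    have e2 : z.2 = 0 := funext fun i => by
      have := h4 i; have := h5 i; simp only [Pi.zero_apply]; linarith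
    exact Prod.ext e1 e2

end Vale.Agent.P088.R2.H961.S
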