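import Vale.Agent.P088.R2.H961.S.Meh3

/-!
# The inverse of `B₂` for the oscillator algebra of the model
-/

open MeasureTheory Set Filter
open scoped ContDiff Topology
open Vale.Agent.P088.HY.H593W

noncomputable section

namespace Vale.Agent.P088.R2.H961.S

variable {ι E P : Type} [Fintype ι] [DecidableEq ι] [NormedAddCommGroup E] [NormedSpace ℝ E]
  [NormedAddCommGroup P] [NormedSpace ℝ P] {π : E →L[ℝ] P} (F : Fram ι π)
  [MeasurableSpace E] [BorelSpace E] [FiniteDimensional ℝ E] (μ : Measure E) [μ.IsAddHaarMeasure]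

/-- **The inverse of `B₂`.** Every test function `c` is `B₂ f`, with `f` rapidly decreasing and
supported over the projection of the support of `c`. -/
theorem b2_osc (hn : 3 ≤ Fintype.card ι) (E₀ : ℝ) (hE : 0 < E₀) (l φ : P → ℝ)
    (cl : ContDiff ℝ ∞ l) (cφ : ContDiff ℝ ∞ φ) {c : E → ℝ} (cc : ContDiff ℝ ∞ c)
    (sc : HasCompactSupport c) : ∃ f : SW π, (∀ z, π z ∉ π '' tsupport c → f.fn z = 0) ∧
      ((F.dat E₀ hE l φ cl cφ).osc μ).B2 f = tst c cc sc :=
  b2_inv F hn E₀ hE l φ cl cφ cc sc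

omit [DecidableEq ι] in
theorem haarVV : (volume : Measure ((ι → ℝ) × (ι → ℝ))).IsAddHaarMeasure :=
  Measure.prod.instIsAddHaarMeasure (volume : Measure (ι → ℝ)) (volume : Measure (ι → ℝ))

/-- The same on pairs of points of `ℝⁿ`. -/
theorem b2_VV (hn : 3 ≤ Fintype.card ι) (E₀ : ℝ) (hE : 0 < E₀) (l φ : (ι → ℝ) → ℝ)
    (cl : ContDiff ℝ ∞ l) (cφ : ContDiff ℝ ∞ φ) {c : (ι → ℝ) × (ι → ℝ) → ℝ}
    (cc : ContDiff ℝ ∞ c) (sc : HasCompactSupport c) :
    have := haarVV (ι := ι)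
    ∃ f : SW (mid ι), (∀ z, mid ι z ∉ mid ι '' tsupport c → f.fn z = 0) ∧
      (((frV ι).dat E₀ hE l φ cl cφ).osc volume).B2 f = tst c cc sc :=
  have := haarVV (ι := ι)
  b2_osc (frV ι) volume hn E₀ hE l φ cl cφ cc sc

end Vale.Agent.P088.R2.H961.S
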