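import Mathlib.Analysis.Calculus.LineDeriv.IntegrationByParts
import Mathlib.Analysis.SpecialFunctions.JapaneseBracket
import Mathlib.Analysis.SpecialFunctions.Integrals.Basic
import Mathlib.MeasureTheory.Integral.IntervalIntegral.FundThmCalculus
import Mathlib.MeasureTheory.Integral.Prod
import Mathlib.Analysis.Complex.Exponential
import Mathlib.Tactic

/-!
# The Gaussian measure (not normalised) and the measure `s^α ds` on `(0, 1)`
-/

open MeasureTheory Set Filter
open scoped ContDiff Topology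

noncomputable section

namespace Vale.Agent.P088.R2.H961.S

/-- Powers are dominated by Gaussians. -/
theorem pow_exp_bd (c : ℝ) (hc : 0 < c) (N : ℕ) :
    ∃ C : ℝ, ∀ t, 0 ≤ t → (1 + t) ^ N * Real.exp (-(c * t ^ 2)) ≤ C := by
  refine ⟨N.factorial * Real.exp (1 + 1 / (4 * c)), fun t ht => ?_⟩
  have h1 := Real.pow_div_factorial_le_exp (x := 1 + t) (by linarith) N
  have hN : (0 : ℝ) < N.factorial := by exact_mod_cast N.factorial_pos
  rw [div_le_iff₀ hN] at h1
  have h2 : 1 + t + -(c * t ^ 2) ≤ 1 + 1 / (4 * c) := by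
    have : 0 ≤ c * (t - 1 / (2 * c)) ^ 2 := by positivity
    have e : c * (t - 1 / (2 * c)) ^ 2 = c * t ^ 2 - t + 1 / (4 * c) := by
      field_simp; ring
    linarith
  calc (1 + t) ^ N * Real.exp (-(c * t ^ 2))
      ≤ (Real.exp (1 + t) * N.factorial) * Real.exp (-(c * t ^ 2)) := by gcongr
    _ = N.factorial * Real.exp (1 + t + -(c * t ^ 2)) := by
        rw [Real.exp_add (1 + t)]; ring
    _ ≤ N.factorial * Real.exp (1 + 1 / (4 * c)) := by gcongr

variable {ι : Type} [Fintype ι]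

/-- The Gaussian function. -/
def rh (ζ : ι → ℝ) : ℝ := Real.exp (-((∑ i, ζ i ^ 2) / 2))

theorem rh_pos (ζ : ι → ℝ) : 0 < rh ζ := Real.exp_pos _

theorem rh_sm : ContDiff ℝ ∞ (rh : (ι → ℝ) → ℝ) := by
  unfold rh; fun_prop

theorem norm_sq_le (ζ : ι → ℝ) : ‖ζ‖ ^ 2 ≤ ∑ i, ζ i ^ 2 := by
  have h0 : 0 ≤ ∑ i, ζ i ^ 2 := Finset.sum_nonneg fun _ _ => sq_nonneg _
  have h1 : ‖ζ‖ ≤ Real.sqrt (∑ i, ζ i ^ 2) := by
    rw [pi_norm_le_iff_of_nonneg (Real.sqrt_nonneg _)]
    intro i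
    rw [Real.norm_eq_abs]
    refine Real.abs_le_sqrt ?_
    exact Finset.single_le_sum (f := fun i => ζ i ^ 2) (fun _ _ => sq_nonneg _)
      (Finset.mem_univ i)
  calc ‖ζ‖ ^ 2 ≤ Real.sqrt (∑ i, ζ i ^ 2) ^ 2 := by gcongr
    _ = _ := Real.sq_sqrt h0

theorem rh_le (ζ : ι → ℝ) : rh ζ ≤ Real.exp (-(1 / 2 * ‖ζ‖ ^ 2)) := by
  unfold rh
  have := norm_sq_le ζ
  gcongr
  linarith

/-- The moments. -/
theorem rh_int (N : ℕ) : Integrable fun ζ : ι → ℝ => (1 + ‖ζ‖) ^ N * rh ζ := by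
  obtain ⟨C, hC⟩ := pow_exp_bd (1 / 2) (by norm_num) (N + (Module.finrank ℝ (ι → ℝ) + 1))
  have h1 : Integrable (fun z : ι → ℝ => (1 + ‖z‖) ^ (-((Module.finrank ℝ (ι → ℝ) : ℝ) + 1))) :=
    integrable_one_add_norm (by linarith)
  refine (h1.const_mul C).mono'
    (((continuous_const.add continuous_norm).pow N).mul rh_sm.continuous).aestronglyMeasurable
    (Eventually.of_forall fun z => ?_)
  have h4 : (1 + ‖z‖) ^ (-((Module.finrank ℝ (ι → ℝ) : ℝ) + 1)) =
      ((1 + ‖z‖) ^ (Module.finrank ℝ (ι → ℝ) + 1))⁻¹ := by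
    rw [Real.rpow_neg (by positivity), ← Real.rpow_natCast]; push_cast; rfl
  have h5 := hC ‖z‖ (norm_nonneg z)
  have h6 := rh_le z
  have h7 : 0 < (1 + ‖z‖) ^ (Module.finrank ℝ (ι → ℝ) + 1) := by positivity
  rw [h4, Real.norm_of_nonneg (mul_nonneg (by positivity) (rh_pos z).le), ← div_eq_mul_inv,
    le_div_iff₀ h7]
  calc (1 + ‖z‖) ^ N * rh z * (1 + ‖z‖) ^ (Module.finrank ℝ (ι → ℝ) + 1)
      = (1 + ‖z‖) ^ (N + (Module.finrank ℝ (ι → ℝ) + 1)) * rh z := by rw [pow_add _ N]; ring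
    _ ≤ (1 + ‖z‖) ^ (N + (Module.finrank ℝ (ι → ℝ) + 1)) *
        Real.exp (-(1 / 2 * ‖z‖ ^ 2)) := by gcongr
    _ ≤ C := h5

/-- The Gaussian measure. -/
def gm (ι : Type) [Fintype ι] : Measure (ι → ℝ) :=
  volume.withDensity fun ζ => ENNReal.ofReal (rh ζ)

theorem gm_meas : Measurable fun ζ : ι → ℝ => ENNReal.ofReal (rh ζ) :=
  (rh_sm.continuous.measurable).ennreal_ofReal

theorem gm_integral (f : (ι → ℝ) → ℝ) : ∫ ζ, f ζ ∂(gm ι) = ∫ ζ, rh ζ * f ζ := by
  unfold gm
  rw [integral_withDensity_eq_integral_toReal_smul gm_meas (by simp)]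
  refine integral_congr_ae (Eventually.of_forall fun ζ => ?_)
  simp only [smul_eq_mul]
  rw [ENNReal.toReal_ofReal (rh_pos ζ).le]

theorem gm_integrable {f : (ι → ℝ) → ℝ} :
    Integrable f (gm ι) ↔ Integrable fun ζ => rh ζ * f ζ := by
  unfold gm
  rw [integrable_withDensity_iff_integrable_smul' gm_meas (by simp)]
  refine integrable_congr (Eventually.of_forall fun ζ => ?_)
  simp only [smul_eq_mul]
  rw [ENNReal.toReal_ofReal (rh_pos ζ).le]

theorem gm_mom (N : ℕ) : Integrable (fun ζ : ι → ℝ => (1 + ‖ζ‖) ^ N) (gm ι) := by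
  rw [gm_integrable]
  refine (rh_int N).congr (Eventually.of_forall fun ζ => ?_)
  simp only []
  ring

instance : IsFiniteMeasure (gm ι) := by
  have := gm_mom (ι := ι) 0
  simp only [pow_zero] at this
  have h := (integrable_const_iff (c := (1 : ℝ))).1 this
  simpa using h

/-- The total mass. -/
def gZ (ι : Type) [Fintype ι] : ℝ := ∫ ζ : ι → ℝ, rh ζ

theorem gZ_pos : 0 < gZ ι := by
  unfold gZ
  have h1 : Integrable (rh : (ι → ℝ) → ℝ) := by
    have := rh_int (ι := ι) 0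
    simpa using this
  rw [integral_pos_iff_support_of_nonneg (fun ζ => (rh_pos ζ).le) h1]
  have : Function.support (rh : (ι → ℝ) → ℝ) = univ := by
    ext ζ; simp [(rh_pos ζ).ne']
  rw [this]
  exact isOpen_univ.measure_pos volume univ_nonempty

/-- Gaussian integration by parts. -/
theorem gm_ibp [DecidableEq ι] {f : (ι → ℝ) → ℝ} (hf : ContDiff ℝ ∞ f) {C D : ℝ} {N : ℕ}
    (h0 : ∀ ζ, |f ζ| ≤ C) (i : ι)
    (h1 : ∀ ζ, |fderiv ℝ f ζ (Pi.single i 1)| ≤ D * (1 + ‖ζ‖) ^ N) :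
    ∫ ζ, ζ i * f ζ ∂(gm ι) = ∫ ζ, fderiv ℝ f ζ (Pi.single i 1) ∂(gm ι) := by
  rw [gm_integral, gm_integral]
  have d0 : ∀ ζ : ι → ℝ, fderiv ℝ rh ζ (Pi.single i 1) = -(ζ i) * rh ζ := by
    intro ζ
    have e1 : HasFDerivAt (fun ζ : ι → ℝ => -((∑ j, ζ j ^ 2) / 2))
        (-((∑ j, (2 * ζ j) • ContinuousLinearMap.proj (R := ℝ) (φ := fun _ : ι => ℝ) j)).smulRight
          (1 / 2 : ℝ)) ζ := by
      have e2 : ∀ j ∈ Finset.univ, HasFDerivAt (fun ζ : ι → ℝ => ζ j ^ 2)
          ((2 * ζ j) • ContinuousLinearMap.proj (R := ℝ) (φ := fun _ : ι => ℝ) j) ζ := by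
        intro j _
        have := (hasFDerivAt_apply (𝕜 := ℝ) j ζ).pow 2
        simpa using this
      have e3 := (HasFDerivAt.fun_sum e2).mul_const (1 / 2)
      have e4 := e3.neg
      refine (e4.congr_of_eventuallyEq (Eventually.of_forall fun ζ => ?_)).congr_fderiv ?_
      · change -((∑ j, ζ j ^ 2) / 2) = -((∑ j, ζ j ^ 2) * (1 / 2))
        ring
      · ext v
        simp [ContinuousLinearMap.smulRight_apply]
        ring
    have e5 := e1.exp
    have : fderiv ℝ rh ζ = _ := e5.fderiv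
    rw [this]
    simp only [_root_.smul_apply, _root_.neg_apply, ContinuousLinearMap.smulRight_apply,
      _root_.sum_apply, ContinuousLinearMap.proj_apply, smul_eq_mul,
      Pi.single_apply]
    have : ∑ j, 2 * ζ j * (if j = i then (1 : ℝ) else 0) = 2 * ζ i := by
      simp
    rw [this]
    unfold rh
    ring
  have i1 : Integrable fun ζ : ι → ℝ => rh ζ * fderiv ℝ f ζ (Pi.single i 1) := by
    refine ((rh_int (ι := ι) N).const_mul D).mono' ?_ (Eventually.of_forall fun ζ => ?_)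
    · exact (rh_sm.continuous.mul (((hf.fderiv_right (m := ∞) (by simp)).clm_apply
        contDiff_const).continuous)).aestronglyMeasurable
    · rw [norm_mul, Real.norm_of_nonneg (rh_pos ζ).le, Real.norm_eq_abs]
      have := h1 ζ
      have := rh_pos ζ
      calc rh ζ * |fderiv ℝ f ζ (Pi.single i 1)| ≤ rh ζ * (D * (1 + ‖ζ‖) ^ N) := by gcongr
        _ = _ := by ring
  have i2 : Integrable fun ζ : ι → ℝ => fderiv ℝ rh ζ (Pi.single i 1) * f ζ := by
    refine ((rh_int (ι := ι) 1).const_mul C).mono' ?_ (Eventually.of_forall fun ζ => ?_)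
    · exact ((((rh_sm (ι := ι)).fderiv_right (m := ∞) (by simp)).clm_apply
        contDiff_const).continuous.mul hf.continuous).aestronglyMeasurable
    · rw [d0, norm_mul, norm_mul, norm_neg, Real.norm_of_nonneg (rh_pos ζ).le, Real.norm_eq_abs,
        Real.norm_eq_abs, pow_one]
      have h2 := h0 ζ
      have h3 := rh_pos ζ
      have h4 : |ζ i| ≤ 1 + ‖ζ‖ := by
        have := norm_le_pi_norm ζ i
        rw [Real.norm_eq_abs] at this
        linarith
      have h5 : 0 ≤ C := (abs_nonneg _).trans h2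
      calc |ζ i| * rh ζ * |f ζ| ≤ (1 + ‖ζ‖) * rh ζ * C := by gcongr
        _ = _ := by ring
  have i3 : Integrable fun ζ : ι → ℝ => rh ζ * f ζ := by
    refine ((rh_int (ι := ι) 0).const_mul C).mono' ?_ (Eventually.of_forall fun ζ => ?_)
    · exact (rh_sm.continuous.mul hf.continuous).aestronglyMeasurable
    · rw [norm_mul, Real.norm_of_nonneg (rh_pos ζ).le, Real.norm_eq_abs, pow_zero, one_mul]
      have := h0 ζ
      have := rh_pos ζ
      calc rh ζ * |f ζ| ≤ rh ζ * C := by gcongr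
        _ = _ := by ring
  have key := integral_mul_fderiv_eq_neg_fderiv_mul_of_integrable (μ := (volume : Measure (ι → ℝ)))
    (f := rh) (g := f) (v := Pi.single i 1) i2 i1 i3
    (fun x _ => (rh_sm.differentiable (by simp)) x) (fun x _ => (hf.differentiable (by simp)) x)
  rw [key, ← integral_neg]
  refine integral_congr_ae (Eventually.of_forall fun ζ => ?_)
  simp only [d0]
  ring

/-! ## The measure `s^α ds` -/

/-- `s^α ds` on `(0, 1)`. -/
def sm1 (α : ℝ) : Measure ℝ :=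
  (volume.restrict (Ioo 0 1)).withDensity fun s => ENNReal.ofReal (s ^ α)

theorem sm1_meas (α : ℝ) : Measurable fun s : ℝ => ENNReal.ofReal (s ^ α) :=
  (measurable_id.pow_const α).ennreal_ofReal

theorem sm1_ae (α : ℝ) : ∀ᵐ s ∂(sm1 α), s ∈ Ioo (0 : ℝ) 1 := by
  unfold sm1
  have h : ∀ᵐ s ∂(volume.restrict (Ioo (0 : ℝ) 1)), s ∈ Ioo (0 : ℝ) 1 :=
    ae_restrict_mem measurableSet_Ioo
  exact (withDensity_absolutelyContinuous _ _).ae_le h

theorem sm1_integral (α : ℝ) (f : ℝ → ℝ) : ∫ s, f s ∂(sm1 α) = ∫ s in (0 : ℝ)..1, s ^ α * f s := by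
  unfold sm1
  rw [integral_withDensity_eq_integral_toReal_smul (sm1_meas α) (by simp),
    intervalIntegral.integral_of_le zero_le_one, integral_Ioc_eq_integral_Ioo]
  refine setIntegral_congr_fun measurableSet_Ioo fun s hs => ?_
  simp only [smul_eq_mul]
  rw [ENNReal.toReal_ofReal (Real.rpow_nonneg hs.1.le α)]

theorem sm1_fin {α : ℝ} (hα : -1 < α) : IsFiniteMeasure (sm1 α) := by
  have h1 : Integrable (fun s : ℝ => s ^ α) (volume.restrict (Ioo 0 1)) := by
    have := intervalIntegral.intervalIntegrable_rpow' (a := 0) (b := 1) hα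
    rw [intervalIntegrable_iff_integrableOn_Ioo_of_le zero_le_one] at this
    exact this
  have h2 : Integrable (fun _ : ℝ => (1 : ℝ)) (sm1 α) := by
    unfold sm1
    rw [integrable_withDensity_iff_integrable_smul' (sm1_meas α) (by simp)]
    refine h1.congr ?_
    filter_upwards [ae_restrict_mem measurableSet_Ioo] with s hs
    simp only [smul_eq_mul, mul_one]
    rw [ENNReal.toReal_ofReal (Real.rpow_nonneg hs.1.le α)]
  have h := (integrable_const_iff (c := (1 : ℝ))).1 h2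
  simpa using h

end Vale.Agent.P088.R2.H961.S
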