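import Vale.Agent.P088.R2.H961.S.Inst
import Vale.Agent.P088.R2.H593.W.Core

/-!
# The operators `D_i`, `v_i` on rapidly decreasing functions satisfy the relations of `Osc`

(The proofs are those of `R2/H464/EP/Inst2.lean`.)
-/

open MeasureTheory Set
open scoped ContDiff

noncomputable section

namespace Vale.Agent.P088.R2.H961.S

variable {ι E P : Type} [Fintype ι] [DecidableEq ι] [NormedAddCommGroup E] [NormedSpace ℝ E]
  [NormedAddCommGroup P] [NormedSpace ℝ P] {π : E →L[ℝ] P}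

theorem key_comm {R : Type} [Ring R] [Algebra ℝ R] {K Ks X Y A B G P Q R1 R2 T : R}
    (f1 : K * Ks = Ks * K + G) (f2 : K * Y = Y * K + P) (f3 : K * B = B * K + R1)
    (f4 : X * Ks = Ks * X + Q) (f5 : A * Ks = Ks * A + R2) (f6 : X * Y = Y * X + T)
    (f7 : A * Y = Y * A) (f8 : X * B = B * X) (f9 : A * B = B * A) :
    (K - (1 / 2 : ℝ) • (A * X)) * (Ks - (1 / 2 : ℝ) • (Y * B)) =
      (Ks - (1 / 2 : ℝ) • (Y * B)) * (K - (1 / 2 : ℝ) • (A * X)) +
      (G - (1 / 2 : ℝ) • (Y * R1 + P * B) - (1 / 2 : ℝ) • (R2 * X + A * Q) +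
        (1 / 4 : ℝ) • (A * T * B)) := by
  have e1 : K * (Y * B) = Y * B * K + Y * R1 + P * B := by
    rw [← mul_assoc, f2, add_mul, mul_assoc, f3, mul_add, mul_assoc]
  have e2 : A * X * Ks = Ks * (A * X) + R2 * X + A * Q := by
    rw [mul_assoc, f4, mul_add, ← mul_assoc, f5, add_mul, mul_assoc]
  have e3 : A * X * (Y * B) = Y * B * (A * X) + A * T * B := by
    rw [← mul_assoc, mul_assoc A X Y, f6, mul_add, add_mul, ← mul_assoc A Y X, f7,
      mul_assoc (Y * A), f8, mul_assoc Y A, ← mul_assoc A B, f9, mul_assoc B, ← mul_assoc Y]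
  simp only [sub_mul, mul_sub, smul_mul_assoc, mul_smul_comm, e1, e2, e3, f1]
  module

namespace Dat

variable (S : Dat ι π)

section
variable [MeasurableSpace E] [BorelSpace E] [FiniteDimensional ℝ E]
  (μ : Measure E) [μ.IsAddHaarMeasure]

theorem adj_D (i : ι) : Adj μ (S.D i) (S.Ds i) := by
  have := (adj_dv μ (S.a i)).add (adj_ml (μ := μ) (S.e * S.q i))
  rwa [neg_add_eq_sub] at this

theorem adj_K (i : ι) : Adj μ (S.K i) (S.Ks i) := by
  have := (adj_dv μ (S.b i)).add (adj_ml (μ := μ) (S.g i))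
  rwa [neg_add_eq_sub] at this

theorem adj_D2 : Adj μ S.D2 S.Ds2 := Adj.sum fun i _ => (S.adj_D μ i).mul (S.adj_D μ i)

theorem adj_v (i : ι) : Adj μ (S.v i) (S.vs i) := by
  refine (S.adj_K μ i).sub (Adj.smul _ ?_)
  have := ((adj_ml (μ := μ) (S.l1 i)).mul (adj_ml (μ := μ) S.e')).mul (S.adj_D2 μ)
  rwa [mlc S.e' (S.l1 i)] at this

theorem adj_N : Adj μ (∑ k, S.Ds k * S.D k) (∑ k, S.Ds k * S.D k) :=
  Adj.sum fun i _ => (S.adj_D μ i).symm.mul (S.adj_D μ i)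

theorem adj_BB : Adj μ S.BB S.BB := (S.adj_N μ).add (Adj.smul _ (adj_ml _))

/-! ## The adjoint relations -/

include μ in
theorem D_Ks (i j : ι) :
    S.D j * S.Ks i = S.Ks i * S.D j + (2 : ℝ) • ((S.D j + S.Ds j) * S.L i) := by
  have h := S.K_Ds i j
  have h1 := (S.adj_K μ i).mul (S.adj_D μ j).symm
  have h2 := ((S.adj_D μ j).symm.mul (S.adj_K μ i)).add
    (Adj.smul 2 ((adj_ml (μ := μ) (S.l1 i)).mul ((S.adj_D μ j).add (S.adj_D μ j).symm)))
  have h3 := adj_eq h1 h2 h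
  rw [h3, add_comm (S.Ds j)]; rfl

include μ in
theorem vs_Ds (i j : ι) : S.vs i * S.Ds j = S.Ds j * S.vs i :=
  (adj_eq ((S.adj_v μ i).mul (S.adj_D μ j)) ((S.adj_D μ j).mul (S.adj_v μ i)) (S.v_D i j)).symm

include μ in
theorem D_vs (i j : ι) : S.D j * S.vs i = S.vs i * S.D j + (2 : ℝ) • (S.L i * S.D j) := by
  have h1 := (S.adj_v μ i).mul (S.adj_D μ j).symm
  have h2 := ((S.adj_D μ j).symm.mul (S.adj_v μ i)).add
    (Adj.smul 2 ((adj_ml (μ := μ) (S.l1 i)).mul (S.adj_D μ j).symm))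
  have h3 := adj_eq h1 h2 (S.v_Ds i j)
  rw [h3, ← S.D_L]; rfl

include μ in
theorem EE_vs (i : ι) : S.EE * S.vs i = S.vs i * S.EE + (2 : ℝ) • (S.EE * S.L i) := by
  have h1 := (S.adj_v μ i).mul (adj_ml (μ := μ) S.e)
  have h2 := ((adj_ml (μ := μ) S.e).mul (S.adj_v μ i)).add
    (Adj.smul 2 ((adj_ml (μ := μ) S.e).mul (adj_ml (μ := μ) (S.l1 i))))
  have h3 := adj_eq h1 h2 (S.v_EE i)
  rw [mlc (S.l1 i)] at h3
  exact h3

include μ in
theorem L_vs (i j : ι) : S.L j * S.vs i = S.vs i * S.L j + S.LL i j :=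
  adj_eq ((S.adj_v μ i).mul (adj_ml (μ := μ) (S.l1 j)))
    (((adj_ml (μ := μ) (S.l1 j)).mul (S.adj_v μ i)).add (adj_ml (μ := μ) (S.l2 i j)))
    (S.v_L i j)

end

/-! ## `[v_i, v_j^*]` -/

/-- `∑ D_k^* D_k`. -/
def N : Op π := ∑ k, S.Ds k * S.D k

theorem BB_eq : S.BB = S.N + (Fintype.card ι : ℝ) • S.EE := rfl

theorem sum_D_Ds : ∑ k, S.D k * S.Ds k = S.N + (2 * Fintype.card ι : ℝ) • S.EE := by
  have : ∀ k, S.D k * S.Ds k = S.Ds k * S.D k + (2 : ℝ) • S.EE := fun k => by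
    rw [S.D_Ds, if_pos rfl]
  simp only [this]
  rw [Finset.sum_add_distrib, Finset.sum_const, Finset.card_univ, N, ← Nat.cast_smul_eq_nsmul ℝ,
    smul_smul, mul_comm (2 : ℝ)]

/-- `4 E² |q|² = D² + D^{*2} + 2 BB`. -/
theorem qq_eq : (4 : ℝ) • ml (S.e * S.e * S.qq) = S.D2 + S.Ds2 + (2 : ℝ) • S.BB := by
  have h1 : ∀ k, (S.D k + S.Ds k) * (S.D k + S.Ds k) =
      (4 : ℝ) • ml (S.e * S.e * (S.q k * S.q k)) := fun k => by
    have : S.D k + S.Ds k = (2 : ℝ) • ml (S.e * S.q k) := by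
      rw [D, Ds, two_smul]; abel
    have h0 : S.e * S.q k * (S.e * S.q k) = S.e * S.e * (S.q k * S.q k) := by ring
    rw [this, smul_mul_assoc, mul_smul_comm, smul_smul, ← map_mul, h0]
    norm_num
  have h2 : ml (S.e * S.e * S.qq) = ∑ k, ml (S.e * S.e * (S.q k * S.q k)) := by
    rw [qq, Finset.mul_sum, map_sum]
  rw [h2, Finset.smul_sum]
  simp only [← h1]
  have h3 : ∀ k, (S.D k + S.Ds k) * (S.D k + S.Ds k) =
      S.D k * S.D k + S.Ds k * S.Ds k + (S.D k * S.Ds k + S.Ds k * S.D k) := fun k => by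
    simp only [add_mul, mul_add]; abel
  simp only [h3]
  rw [Finset.sum_add_distrib, Finset.sum_add_distrib, Finset.sum_add_distrib, sum_D_Ds, BB_eq,
    ← D2, ← Ds2, ← N]
  module

/-- `[K_i, D^{*2}] = 4 l_i (D^{*2} + BB)`. -/
theorem K_Ds2 (i : ι) :
    S.K i * S.Ds2 = S.Ds2 * S.K i + (4 : ℝ) • (S.L i * (S.Ds2 + S.BB)) := by
  have h : ∀ k, S.K i * (S.Ds k * S.Ds k) = S.Ds k * S.Ds k * S.K i +
      (2 : ℝ) • (S.L i * (S.D k * S.Ds k + S.Ds k * S.Ds k + (S.Ds k * S.D k + S.Ds k * S.Ds k))) :=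
    fun k => by
    rw [← mul_assoc, S.K_Ds, add_mul, mul_assoc (S.Ds k), S.K_Ds, mul_add, smul_mul_assoc,
      mul_smul_comm, mul_assoc (S.L i), ← mul_assoc (S.Ds k) (S.L i), S.Ds_L, mul_assoc (S.L i),
      ← mul_assoc (S.Ds k) (S.Ds k), add_assoc, ← smul_add, ← mul_add]
    congr 3
    simp only [add_mul, mul_add]
    abel
  rw [Ds2, Finset.mul_sum, Finset.sum_mul]
  simp only [h]
  rw [Finset.sum_add_distrib, ← Finset.smul_sum, ← Finset.mul_sum, Finset.sum_add_distrib,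
    Finset.sum_add_distrib, Finset.sum_add_distrib, sum_D_Ds, ← Ds2, ← N]
  have : S.N + (2 * Fintype.card ι : ℝ) • S.EE + S.Ds2 + (S.N + S.Ds2) =
      (2 : ℝ) • (S.Ds2 + S.BB) := by
    rw [BB_eq]; module
  rw [this, mul_smul_comm, smul_smul]
  norm_num

theorem N_ml {f : Mu π} (h : ∀ i, ds (S.a i) f = 0) : S.N * ml f = ml f * S.N := by
  rw [N, Finset.mul_sum, Finset.sum_mul]
  refine Finset.sum_congr rfl fun k _ => ?_
  rw [mul_assoc, S.D_ml h k, ← mul_assoc, S.Ds_ml h k, mul_assoc]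

theorem BB_ml {f : Mu π} (h : ∀ i, ds (S.a i) f = 0) : S.BB * ml f = ml f * S.BB := by
  rw [BB_eq, add_mul, mul_add, S.N_ml h, smul_mul_assoc, mul_smul_comm, EE, mlc]

theorem ml_Ks (j : ι) (f : Mu π) : ml f * S.Ks j = S.Ks j * ml f + ml (ds (S.b j) f) := by
  rw [Ks, sub_mul, mul_sub, dv_ml, mlc]; abel

theorem D2_Ds2 : S.D2 * S.Ds2 = S.Ds2 * S.D2 + (8 : ℝ) • (S.EE * S.BB) := by
  have h : ∀ k, S.D2 * (S.Ds k * S.Ds k) = S.Ds k * S.Ds k * S.D2 +
      (4 : ℝ) • (S.EE * (S.D k * S.Ds k + S.Ds k * S.D k)) := fun k => by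
    rw [← mul_assoc, S.D2_Ds, add_mul, mul_assoc (S.Ds k), S.D2_Ds, mul_add, smul_mul_assoc,
      mul_smul_comm, mul_assoc S.EE, ← mul_assoc (S.Ds k) S.EE, S.Ds_EE, mul_assoc S.EE,
      ← mul_assoc (S.Ds k) (S.Ds k), add_assoc, ← smul_add, ← mul_add, add_comm (S.Ds k * S.D k)]
  rw [Ds2, Finset.mul_sum, Finset.sum_mul]
  simp only [h]
  rw [Finset.sum_add_distrib, ← Finset.smul_sum, ← Finset.mul_sum, Finset.sum_add_distrib,
    sum_D_Ds, ← N]
  have : S.N + (2 * Fintype.card ι : ℝ) • S.EE + S.N = (2 : ℝ) • S.BB := by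
    rw [BB_eq]; module
  rw [this, mul_smul_comm, smul_smul]
  norm_num

section
variable [MeasurableSpace E] [BorelSpace E] [FiniteDimensional ℝ E]
  (μ : Measure E) [μ.IsAddHaarMeasure]

include μ in
theorem D2_Ks (i : ι) :
    S.D2 * S.Ks i = S.Ks i * S.D2 + (4 : ℝ) • (S.L i * (S.D2 + S.BB)) := by
  have h1 := (S.adj_K μ i).mul (S.adj_D2 μ).symm
  have h2 := ((S.adj_D2 μ).symm.mul (S.adj_K μ i)).add
    (Adj.smul 4 ((adj_ml (μ := μ) (S.l1 i)).mul ((S.adj_D2 μ).symm.add (S.adj_BB μ))))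
  have h3 := adj_eq h1 h2 (S.K_Ds2 i)
  rw [add_mul, S.D2_ml (fun k => S.al1 k i), S.BB_ml (fun k => S.al1 k i), ← mul_add] at h3
  exact h3

include μ in
/-- `[v_i, v_j^*] = 2 φ_ij + (l_ij / E) BB`. -/
theorem v_vs (i j : ι) : S.v i * S.vs j = S.vs j * S.v i +
    ((2 : ℝ) • S.PP i j + ml (S.l2 i j * S.e') * S.BB) := by
  have hp : ∀ k, ds (S.a k) (S.l1 i * S.e') = 0 := fun k => by
    rw [ds_mul, S.al1, S.ae']; simp
  have hp' : ∀ k, ds (S.a k) (S.l1 j * S.e') = 0 := fun k => by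
    rw [ds_mul, S.al1, S.ae']; simp
  have hv : S.v i = S.K i - (1 / 2 : ℝ) • (ml (S.l1 i * S.e') * S.D2) := by
    rw [v, L, EI, map_mul]
  have hw : S.vs j = S.Ks j - (1 / 2 : ℝ) • (S.Ds2 * ml (S.l1 j * S.e')) := by
    rw [vs, L, EI, map_mul]
  have r1 : ds (S.b i) (S.l1 j * S.e') = S.l2 i j * S.e' - 2 * (S.l1 i * S.l1 j * S.e') := by
    rw [ds_mul, S.be', l2]; ring
  have r2 : ds (S.b j) (S.l1 i * S.e') = S.l2 i j * S.e' - 2 * (S.l1 i * S.l1 j * S.e') := by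
    rw [ds_mul, S.be', S.l2_comm i j, l2]; ring
  have f3 := S.K_ml i (S.l1 j * S.e')
  have f5 := S.ml_Ks j (S.l1 i * S.e')
  rw [r1] at f3
  rw [r2] at f5
  have hab : ∀ k, ds (S.a k) (S.l2 i j * S.e' - 2 * (S.l1 i * S.l1 j * S.e')) = 0 := fun k => by
    rw [← r1, ds_comm, hp', map_zero]
  have key := key_comm (S.K_Ks i j) (S.K_Ds2 i) f3 (S.D2_Ks μ j) f5 S.D2_Ds2
    (S.Ds2_ml hp).symm (S.D2_ml hp') (mlc _ _)
  rw [hv, hw, key]
  congr 1
  have g0 : (4 : ℝ) • ml (S.e * S.qq) = S.EI * (S.D2 + S.Ds2 + (2 : ℝ) • S.BB) := by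
    rw [← qq_eq, mul_smul_comm, EI, ← map_mul]
    congr 2
    have : S.e' * (S.e * S.e * S.qq) = (S.e * S.e') * (S.e * S.qq) := by ring
    rw [this, S.inv, one_mul]
  have g1 : (2 : ℝ) • ml (S.φ2 i j + (S.l2 i j + 2 * (S.l1 i * S.l1 j)) * (S.e * S.qq)) =
      (2 : ℝ) • S.PP i j + (1 / 2 : ℝ) • ((ml (S.l2 i j * S.e') +
        (2 : ℝ) • ml (S.l1 i * S.l1 j * S.e')) * (S.D2 + S.Ds2 + (2 : ℝ) • S.BB)) := by
    have h0 : (2 : ℝ) • ml ((S.l2 i j + 2 * (S.l1 i * S.l1 j)) * (S.e * S.qq)) =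
        (1 / 2 : ℝ) • (ml (S.l2 i j + 2 * (S.l1 i * S.l1 j)) * ((4 : ℝ) • ml (S.e * S.qq))) := by
      rw [mul_smul_comm, smul_smul, ← map_mul]; norm_num
    rw [map_add, smul_add, h0, g0, ← mul_assoc, EI, ← map_mul, PP]
    congr 3
    rw [← map_smul, ← map_add, two_smul]
    congr 1
    ring
  have g2 : S.L i * (S.Ds2 + S.BB) * ml (S.l1 j * S.e') =
      ml (S.l1 i * S.l1 j * S.e') * (S.Ds2 + S.BB) := by
    rw [mul_assoc, add_mul, S.Ds2_ml hp', S.BB_ml hp', ← mul_add, ← mul_assoc, L, ← map_mul,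
      mul_assoc]
  have g3 : ml (S.l1 i * S.e') * (S.L j * (S.D2 + S.BB)) =
      ml (S.l1 i * S.l1 j * S.e') * (S.D2 + S.BB) := by
    rw [← mul_assoc, L, ← map_mul]
    congr 2
    ring
  have g4 : ml (S.l1 i * S.e') * (S.EE * S.BB) * ml (S.l1 j * S.e') =
      ml (S.l1 i * S.l1 j * S.e') * S.BB := by
    have h1 : (S.l1 i * S.e') * S.e * (S.l1 j * S.e') =
        (S.l1 i * S.l1 j * S.e') * (S.e * S.e') := by ring
    rw [mul_assoc, mul_assoc, S.BB_ml hp', ← mul_assoc S.EE, ← mul_assoc, ← mul_assoc, EE,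
      ← map_mul, ← map_mul, h1, S.inv, mul_one]
  have g5 := S.Ds2_ml hab
  rw [g1, g5, map_sub]
  have g6 : ml (2 * (S.l1 i * S.l1 j * S.e')) = (2 : ℝ) • ml (S.l1 i * S.l1 j * S.e') := by
    rw [← map_smul, two_smul, two_mul]
  rw [g6]
  simp only [smul_mul_assoc, mul_smul_comm, g2, g3, g4]
  simp only [add_mul, mul_add, sub_mul, smul_mul_assoc, mul_smul_comm]
  module

open Vale.Agent.P088.HY.H593W in
/-- The operators on test functions form an `Osc`. -/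
def osc : Osc ι (SW π) where
  ip := ip μ
  D := S.D
  Ds := S.Ds
  v := S.v
  vs := S.vs
  L := S.L
  LL := S.LL
  C := fun i j => (2 : ℝ) • S.PP i j + ml (S.l2 i j * S.e') * S.BB
  E := S.EE
  symm := ip_comm μ
  adD := fun i x y => S.adj_D μ i x y
  adv := fun i x y => S.adj_v μ i x y
  adE := fun x y => adj_ml (μ := μ) S.e x y
  adL := fun i x y => adj_ml (μ := μ) (S.l1 i) x y
  DD := fun i j x => LinearMap.congr_fun (S.D_D i j) x
  DsDs := fun i j x => LinearMap.congr_fun (S.Ds_Ds i j) x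
  DDs := fun i j x => by
    have := LinearMap.congr_fun (S.D_Ds i j) x
    by_cases h : i = j
    · rw [if_pos h] at this ⊢; exact this
    · rw [if_neg h] at this ⊢; exact this
  ED := fun i x => LinearMap.congr_fun (S.D_EE i).symm x
  EDs := fun i x => LinearMap.congr_fun (S.Ds_EE i).symm x
  EL := fun i x => LinearMap.congr_fun (mlc S.e (S.l1 i)) x
  LD := fun i j x => LinearMap.congr_fun (S.D_L j i).symm x
  LDs := fun i j x => LinearMap.congr_fun (S.Ds_L j i).symm x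
  vD := fun i j x => LinearMap.congr_fun (S.v_D i j) x
  vsDs := fun i j x => LinearMap.congr_fun (S.vs_Ds μ i j) x
  vDs := fun i j x => LinearMap.congr_fun (S.v_Ds i j) x
  Dvs := fun i j x => LinearMap.congr_fun (S.D_vs μ i j) x
  vE := fun i x => LinearMap.congr_fun (S.v_EE i) x
  Evs := fun i x => LinearMap.congr_fun (S.EE_vs μ i) x
  vL := fun i j x => LinearMap.congr_fun (S.v_L i j) x
  Lvs := fun i j x => LinearMap.congr_fun (S.L_vs μ i j) x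
  vvs := fun i j x => LinearMap.congr_fun (S.v_vs μ i j) x
  LLc := fun i j x => LinearMap.congr_fun (mlc (S.l1 i) (S.l1 j)) x
  LLs := fun i j x => by rw [LL, LL, S.l2_comm]

end

/-! ## The weight -/

/-- `W = E |q|² / 2 + φ`. -/
def w : Mu π := (1 / 2 : ℝ) • (S.e * S.qq) + S.φ

theorem D_eq (i : ι) : S.D i = dv (S.a i) + ml (ds (S.a i) S.w) := by
  rw [D, w, map_add, map_smul, ds_mul, S.ae, S.aqq, S.aφ]
  congr 2
  rw [zero_mul, zero_add, add_zero]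
  have : S.e * (2 * S.q i) = (2 : ℝ) • (S.e * S.q i) := by
    rw [two_smul]; ring
  rw [this, smul_smul]; norm_num

theorem K_eq (i : ι) : S.K i = dv (S.b i) + ml (ds (S.b i) S.w) := by
  rw [K, w, map_add, map_smul, ds_mul, S.be, S.bqq, g]
  congr 2
  have : 2 * (ds (S.b i) S.l * S.e) * S.qq + S.e * 0 = (2 : ℝ) • (S.l1 i * S.e * S.qq) := by
    rw [two_smul, l1]; ring
  rw [this, smul_smul, φ1, add_comm]; norm_num

end Dat

end Vale.Agent.P088.R2.H961.S
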