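import Mathlib.Analysis.Calculus.ContDiff.Bounds
import Mathlib.Analysis.Calculus.ParametricIntegral
import Mathlib.MeasureTheory.Integral.Bochner.Basic
import Mathlib.Tactic

/-!
# Smoothness of integrals with a parameter
-/

open MeasureTheory Set Filter
open scoped ContDiff Topology

noncomputable section

namespace Vale.Agent.P088.R2.H961.S

variable {X Y : Type} [NormedAddCommGroup X] [NormedSpace ℝ X] [NormedAddCommGroup Y]
  [NormedSpace ℝ Y]

/-- The derivatives in the second variable. -/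
theorem iter_snd {F : Type} [NormedAddCommGroup F] [NormedSpace ℝ F] {h : Y × X → F}
    (hh : ContDiff ℝ ∞ h) (m : ℕ) (y : Y) (x : X) :
    iteratedFDeriv ℝ m (fun x => h (y, x)) x =
      (iteratedFDeriv ℝ m h (y, x)).compContinuousLinearMap fun _ =>
        ContinuousLinearMap.inr ℝ Y X := by
  have h1 : (fun x => h (y, x)) = (fun w => h ((y, 0) + w)) ∘ ContinuousLinearMap.inr ℝ Y X := by
    funext x
    simp
  have h2 : ContDiff ℝ ∞ fun w => h ((y, 0) + w) := hh.comp (contDiff_const.add contDiff_id)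
  rw [h1, ContinuousLinearMap.iteratedFDeriv_comp_right _ h2 x (by exact_mod_cast le_top),
    iteratedFDeriv_comp_add_left]
  simp

theorem iter_snd_cont {F : Type} [NormedAddCommGroup F] [NormedSpace ℝ F] {h : Y × X → F}
    (hh : ContDiff ℝ ∞ h) (m : ℕ) (x : X) :
    Continuous fun y => iteratedFDeriv ℝ m (fun x => h (y, x)) x := by
  have h1 : (fun y => iteratedFDeriv ℝ m (fun x => h (y, x)) x) = fun y =>
      ContinuousMultilinearMap.compContinuousLinearMapL (fun _ : Fin m =>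
        ContinuousLinearMap.inr ℝ Y X) (iteratedFDeriv ℝ m h (y, x)) := by
    funext y
    rw [iter_snd hh]; rfl
  rw [h1]
  exact (ContinuousLinearMap.continuous _).comp
    ((hh.continuous_iteratedFDeriv (m := m) (by exact_mod_cast le_top)).comp
      (Continuous.prodMk_left x))

/-- The derivative in the second variable. -/
def d2 {F : Type} [NormedAddCommGroup F] [NormedSpace ℝ F] (h : Y × X → F) (w : Y × X) :
    X →L[ℝ] F := fderiv ℝ (fun x => h (w.1, x)) w.2

theorem d2_eq {F : Type} [NormedAddCommGroup F] [NormedSpace ℝ F] {h : Y × X → F}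
    (hh : ContDiff ℝ ∞ h) (w : Y × X) :
    d2 h w = (fderiv ℝ h w).comp (ContinuousLinearMap.inr ℝ Y X) := by
  have h1 : HasFDerivAt (fun x => h (w.1, x)) ((fderiv ℝ h w).comp
      (ContinuousLinearMap.inr ℝ Y X)) w.2 := by
    have h2 : HasFDerivAt (fun x : X => (w.1, x)) (ContinuousLinearMap.inr ℝ Y X) w.2 :=
      hasFDerivAt_prodMk_right w.1 w.2
    exact HasFDerivAt.comp w.2 ((hh.differentiable (by simp)) (w.1, w.2)).hasFDerivAt h2
  exact h1.fderiv

theorem d2_sm {F : Type} [NormedAddCommGroup F] [NormedSpace ℝ F] {h : Y × X → F}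
    (hh : ContDiff ℝ ∞ h) : ContDiff ℝ ∞ (d2 h) := by
  have : d2 h = fun w => (fderiv ℝ h w).comp (ContinuousLinearMap.inr ℝ Y X) :=
    funext fun w => d2_eq hh w
  rw [this]
  exact (hh.fderiv_right (m := ∞) (by simp)).clm_comp contDiff_const

variable {Ω : Type*} [MeasurableSpace Ω] {μ : Measure Ω} {Φ : Ω → Y}

/-- The bounds. -/
def Bd (μ : Measure Ω) (Φ : Ω → Y) {F : Type} [NormedAddCommGroup F] [NormedSpace ℝ F]
    (h : Y × X → F) : Prop :=
  ∀ m : ℕ, ∃ b : Ω → ℝ, Integrable b μ ∧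
    ∀ᵐ o ∂μ, ∀ x, ‖iteratedFDeriv ℝ m (fun x => h (Φ o, x)) x‖ ≤ b o

theorem Bd.d2 {F : Type} [NormedAddCommGroup F] [NormedSpace ℝ F]
    {h : Y × X → F} (hb : Bd μ Φ h) : Bd μ Φ (d2 h) := by
  intro m
  obtain ⟨b, hb1, hb2⟩ := hb (m + 1)
  refine ⟨b, hb1, ?_⟩
  filter_upwards [hb2] with o ho x
  have := ho x
  rw [← norm_iteratedFDeriv_fderiv] at this
  exact this

/-- The measurability. -/
theorem par_meas (hΦ : AEStronglyMeasurable Φ μ) {F : Type} [NormedAddCommGroup F]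
    [NormedSpace ℝ F] {h : Y × X → F} (hh : ContDiff ℝ ∞ h) (x : X) :
    AEStronglyMeasurable (fun o => h (Φ o, x)) μ :=
  (hh.continuous.comp (Continuous.prodMk_left x)).comp_aestronglyMeasurable hΦ

theorem par_int (hΦ : AEStronglyMeasurable Φ μ) {F : Type} [NormedAddCommGroup F]
    [NormedSpace ℝ F] {h : Y × X → F} (hh : ContDiff ℝ ∞ h) (hb : Bd μ Φ h) (x : X) :
    Integrable (fun o => h (Φ o, x)) μ := by
  obtain ⟨b, hb1, hb2⟩ := hb 0
  refine hb1.mono' (par_meas hΦ hh x) ?_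
  filter_upwards [hb2] with o ho
  have := ho x
  rwa [norm_iteratedFDeriv_zero] at this

/-- The derivative of the integral. -/
theorem par_hasFDerivAt (hΦ : AEStronglyMeasurable Φ μ) {F : Type} [NormedAddCommGroup F]
    [NormedSpace ℝ F] {h : Y × X → F} (hh : ContDiff ℝ ∞ h) (hb : Bd μ Φ h) (x : X) :
    HasFDerivAt (fun x => ∫ o, h (Φ o, x) ∂μ) (∫ o, d2 h (Φ o, x) ∂μ) x := by
  obtain ⟨b, hb1, hb2⟩ := hb 1
  refine hasFDerivAt_integral_of_dominated_of_fderiv_le (s := univ) (bound := b)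
    (F' := fun x o => d2 h (Φ o, x)) univ_mem
    (Eventually.of_forall fun x => par_meas hΦ hh x) (par_int hΦ hh hb x)
    (par_meas hΦ (d2_sm hh) x) ?_ hb1 ?_
  · filter_upwards [hb2] with o ho x _
    have := ho x
    rwa [norm_iteratedFDeriv_one] at this
  · refine Eventually.of_forall fun o x _ => ?_
    have h1 : ContDiff ℝ ∞ fun x => h (Φ o, x) := hh.comp (contDiff_const.prodMk contDiff_id)
    exact ((h1.differentiable (by simp)) x).hasFDerivAt

/-- The integral is smooth, with bounds. -/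
theorem par_nat (hΦ : AEStronglyMeasurable Φ μ) (m : ℕ) : ∀ {F : Type} [NormedAddCommGroup F]
    [NormedSpace ℝ F] {h : Y × X → F} (_ : ContDiff ℝ ∞ h) (_ : Bd μ Φ h),
    ContDiff ℝ m (fun x => ∫ o, h (Φ o, x) ∂μ) ∧
      ∃ C, ∀ x, ‖iteratedFDeriv ℝ m (fun x => ∫ o, h (Φ o, x) ∂μ) x‖ ≤ C := by
  induction m with
  | zero =>
    intro F _ _ h hh hb
    refine ⟨?_, ?_⟩
    · rw [CharP.cast_eq_zero, contDiff_zero]
      exact continuous_iff_continuousAt.2 fun x => (par_hasFDerivAt hΦ hh hb x).continuousAt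
    · obtain ⟨b, hb1, hb2⟩ := hb 0
      refine ⟨∫ o, b o ∂μ, fun x => ?_⟩
      rw [norm_iteratedFDeriv_zero]
      refine norm_integral_le_of_norm_le hb1 ?_
      filter_upwards [hb2] with o ho
      have := ho x
      rwa [norm_iteratedFDeriv_zero] at this
  | succ m ih =>
    intro F _ _ h hh hb
    obtain ⟨h1, C, h2⟩ := ih (d2_sm hh) hb.d2
    have e : fderiv ℝ (fun x => ∫ o, h (Φ o, x) ∂μ) = fun x => ∫ o, d2 h (Φ o, x) ∂μ :=
      funext fun x => (par_hasFDerivAt hΦ hh hb x).fderiv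
    refine ⟨?_, C, fun x => ?_⟩
    · rw [Nat.cast_add, Nat.cast_one, contDiff_succ_iff_fderiv]
      refine ⟨fun x => (par_hasFDerivAt hΦ hh hb x).differentiableAt, by simp, ?_⟩
      rw [e]; exact h1
    · rw [← norm_iteratedFDeriv_fderiv, e]
      exact h2 x

theorem par_smooth (hΦ : AEStronglyMeasurable Φ μ) {F : Type} [NormedAddCommGroup F]
    [NormedSpace ℝ F] {h : Y × X → F} (hh : ContDiff ℝ ∞ h) (hb : Bd μ Φ h) :
    ContDiff ℝ ∞ (fun x => ∫ o, h (Φ o, x) ∂μ) :=
  contDiff_infty.2 fun m => (par_nat hΦ m hh hb).1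

/-- The directional derivatives. -/
theorem par_dir (hΦ : AEStronglyMeasurable Φ μ) {h : Y × X → ℝ} (hh : ContDiff ℝ ∞ h)
    (hb : Bd μ Φ h) (x v : X) :
    fderiv ℝ (fun x => ∫ o, h (Φ o, x) ∂μ) x v =
      ∫ o, fderiv ℝ (fun x => h (Φ o, x)) x v ∂μ := by
  rw [(par_hasFDerivAt hΦ hh hb x).fderiv,
    ContinuousLinearMap.integral_apply (par_int hΦ (d2_sm hh) hb.d2 x) v]
  rfl

end Vale.Agent.P088.R2.H961.S
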