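import Vale.Agent.P088.R2.H961.S.Fram
import Vale.Agent.P088.R2.H961.S.Par
import Vale.Agent.P088.R2.H961.S.Gau
import Mathlib.Analysis.Calculus.LineDeriv.Basic
import Mathlib.Analysis.SpecialFunctions.Sqrt

/-!
# The Mehler map and the bounds of the derivatives
-/

open MeasureTheory Set Filter
open scoped ContDiff Topology

noncomputable section

namespace Vale.Agent.P088.R2.H961.S

variable {ι E P : Type} [Fintype ι] [DecidableEq ι] [NormedAddCommGroup E] [NormedSpace ℝ E]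
  [NormedAddCommGroup P] [NormedSpace ℝ P] {π : E →L[ℝ] P}

/-! ## Bounds -/

theorem lin_bd {E' : Type} [NormedAddCommGroup E'] [NormedSpace ℝ E'] (L : E →L[ℝ] E') {j : ℕ}
    (hj : 1 ≤ j) (z : E) : ‖iteratedFDeriv ℝ j (fun z => L z) z‖ ≤ ‖L‖ := by
  obtain ⟨m, rfl⟩ : ∃ m, j = m + 1 := ⟨j - 1, by omega⟩
  have h1 : ‖iteratedFDeriv ℝ (m + 1) (fun z => L z) z‖ =
        ‖iteratedFDeriv ℝ m (fderiv ℝ fun z => L z) z‖ :=
      (norm_iteratedFDeriv_fderiv (𝕜 := ℝ) (f := fun z => L z)).symm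
  have h2 : (fderiv ℝ fun z => L z) = fun _ => L := by
    funext z; exact L.fderiv
  rw [h1, h2]
  rcases m with _ | m
  · rw [norm_iteratedFDeriv_zero]
  · rw [iteratedFDeriv_const_of_ne (by omega)]
    simp

theorem base_bd {h : P → ℝ} (ch : ContDiff ℝ ∞ h) {K : Set P} (hK : IsCompact K) (m : ℕ) :
    ∃ C : ℝ, 0 ≤ C ∧ ∀ j ≤ m, ∀ z, π z ∈ K → ‖iteratedFDeriv ℝ j (fun z => h (π z)) z‖ ≤ C := by
  have key : ∀ j : ℕ, ∃ C : ℝ, ∀ z, π z ∈ K → ‖iteratedFDeriv ℝ j (fun z => h (π z)) z‖ ≤ C := by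
    intro j
    have hc : Continuous (iteratedFDeriv ℝ j h) :=
      ch.continuous_iteratedFDeriv (m := j) (by exact_mod_cast le_top)
    obtain ⟨C, hC⟩ := hK.exists_bound_of_continuousOn hc.continuousOn
    refine ⟨C * ‖π‖ ^ j, fun z hz => ?_⟩
    have h1 : iteratedFDeriv ℝ j (fun z => h (π z)) z =
        (iteratedFDeriv ℝ j h (π z)).compContinuousLinearMap fun _ => π :=
      π.iteratedFDeriv_comp_right ch z (by exact_mod_cast le_top)
    rw [h1]
    refine (ContinuousMultilinearMap.norm_compContinuousLinearMap_le _ _).trans ?_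
    simp only [Finset.prod_const, Finset.card_univ, Fintype.card_fin]
    gcongr
    exact hC _ hz
  choose C hC using key
  refine ⟨∑ i ∈ Finset.range (m + 1), |C i|,
    Finset.sum_nonneg fun _ _ => abs_nonneg _, fun i hi z hz => ?_⟩
  have him : i ∈ Finset.range (m + 1) := Finset.mem_range.2 (by omega)
  exact ((hC i z hz).trans (le_abs_self _)).trans
    (Finset.single_le_sum (f := fun i => |C i|) (fun _ _ => abs_nonneg _) him)

theorem test_bd {X F' : Type} [NormedAddCommGroup X] [NormedSpace ℝ X] [NormedAddCommGroup F']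
    [NormedSpace ℝ F'] {f : X → F'} (cf : ContDiff ℝ ∞ f) (sf : HasCompactSupport f) (m : ℕ) :
    ∃ C : ℝ, 0 ≤ C ∧ ∀ j ≤ m, ∀ z, ‖iteratedFDeriv ℝ j f z‖ ≤ C := by
  have key : ∀ j : ℕ, ∃ C : ℝ, ∀ z, ‖iteratedFDeriv ℝ j f z‖ ≤ C := by
    intro j
    exact (sf.iteratedFDeriv j).exists_bound_of_continuous
      (cf.continuous_iteratedFDeriv (m := j) (by exact_mod_cast le_top))
  choose C hC using key
  refine ⟨∑ i ∈ Finset.range (m + 1), |C i|,
    Finset.sum_nonneg fun _ _ => abs_nonneg _, fun i hi z => ?_⟩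
  have him : i ∈ Finset.range (m + 1) := Finset.mem_range.2 (by omega)
  exact ((hC i z).trans (le_abs_self _)).trans
    (Finset.single_le_sum (f := fun i => |C i|) (fun _ _ => abs_nonneg _) him)

theorem iter_off {X : Type} [NormedAddCommGroup X] [NormedSpace ℝ X] {f : X → ℝ} {z : X}
    (h : f =ᶠ[𝓝 z] fun _ => 0) (m : ℕ) : iteratedFDeriv ℝ m f z = 0 := by
  rw [(h.iteratedFDeriv ℝ m).eq_of_nhds]
  have := iteratedFDeriv_fun_zero (𝕜 := ℝ) (E := X) (F := ℝ) (n := m)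
  rw [this]; rfl

/-! ## The Mehler map -/

/-- `z ↦ z + ∑ ((s - 1) q_i + κ η_i) a_i`. -/
def Fram.A (F : Fram ι π) (κ : P → ℝ) (w : (ℝ × (ι → ℝ)) × E) : E :=
  w.2 + ∑ i, ((w.1.1 - 1) * F.q i w.2 + κ (π w.2) * w.1.2 i) • F.a i

variable (F : Fram ι π) {κ : P → ℝ}

theorem A_sm (hκ : ContDiff ℝ ∞ κ) : ContDiff ℝ ∞ (F.A κ) := by
  unfold Fram.A
  refine contDiff_snd.add (ContDiff.sum fun i _ => ContDiff.smul ?_ contDiff_const)
  refine ContDiff.add ?_ ?_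
  · exact ((contDiff_fst.comp contDiff_fst).sub contDiff_const).mul
      ((F.q i).contDiff.comp contDiff_snd)
  · exact (hκ.comp (π.contDiff.comp contDiff_snd)).mul
      ((contDiff_apply ℝ ℝ i).comp (contDiff_snd.comp contDiff_fst))

theorem A_π (w : (ℝ × (ι → ℝ)) × E) : π (F.A κ w) = π w.2 := by
  unfold Fram.A
  rw [map_add, map_sum]
  simp only [map_smul, F.ap, smul_zero, Finset.sum_const_zero, add_zero]

theorem A_q (w : (ℝ × (ι → ℝ)) × E) (j : ι) :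
    F.q j (F.A κ w) = w.1.1 * F.q j w.2 + κ (π w.2) * w.1.2 j := by
  unfold Fram.A
  rw [map_add, map_sum]
  simp only [map_smul, F.aq, smul_eq_mul, mul_ite, mul_one, mul_zero]
  rw [Finset.sum_ite_eq' Finset.univ j, if_pos (Finset.mem_univ j)]
  ring

theorem A_a (y : ℝ × (ι → ℝ)) (z : E) (t : ℝ) (k : ι) :
    F.A κ (y, z + t • F.a k) = F.A κ (y, z) + (t * y.1) • F.a k := by
  unfold Fram.A
  simp only [map_add, map_smul, F.ap, smul_zero, add_zero, F.aq, smul_eq_mul]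
  have h : ∀ i, ((y.1 - 1) * (F.q i z + t * (if k = i then (1 : ℝ) else 0)) +
      κ (π z) * y.2 i) • F.a i =
      ((y.1 - 1) * F.q i z + κ (π z) * y.2 i) • F.a i +
        (if k = i then ((y.1 - 1) * t) • F.a i else 0) := by
    intro i
    by_cases h : k = i
    · simp only [h, if_true]
      rw [← add_smul]
      congr 1
      ring
    · simp only [h, if_false, mul_zero, add_zero]
  simp only [h]
  rw [Finset.sum_add_distrib, Finset.sum_ite_eq Finset.univ k, if_pos (Finset.mem_univ k)]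
  module

/-- The derivative along `a k` of a composition. -/
theorem fd_comp_A (hκ : ContDiff ℝ ∞ κ) {f : E → ℝ} (cf : ContDiff ℝ ∞ f) (y : ℝ × (ι → ℝ))
    (z : E) (k : ι) :
    fderiv ℝ (fun z => f (F.A κ (y, z))) z (F.a k) = y.1 * fderiv ℝ f (F.A κ (y, z)) (F.a k) := by
  have c1 : ContDiff ℝ ∞ fun z => f (F.A κ (y, z)) :=
    cf.comp ((A_sm F hκ).comp (contDiff_const.prodMk contDiff_id))
  have h1 : DifferentiableAt ℝ (fun z => f (F.A κ (y, z))) z :=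
    (c1.differentiable (by simp)) z
  have h2 : DifferentiableAt ℝ f (F.A κ (y, z)) := (cf.differentiable (by simp)) _
  have e2 : fderiv ℝ f (F.A κ (y, z)) (y.1 • F.a k) = lineDeriv ℝ f (F.A κ (y, z)) (y.1 • F.a k) :=
    h2.lineDeriv_eq_fderiv.symm
  rw [← smul_eq_mul, ← map_smul, e2, ← h1.lineDeriv_eq_fderiv]
  unfold lineDeriv
  congr 1
  funext t
  change f (F.A κ (y, z + t • F.a k)) = f (F.A κ (y, z) + t • y.1 • F.a k)
  rw [A_a, smul_smul]

/-- The bounds of the derivatives of the Mehler map. -/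
theorem A_bd (hκ : ContDiff ℝ ∞ κ) {K : Set P} (hK : IsCompact K) (m : ℕ) :
    ∃ C : ℝ, 1 ≤ C ∧ ∀ y : ℝ × (ι → ℝ), y.1 ∈ Icc (0 : ℝ) 1 → ∀ z, π z ∈ K → ∀ j, 1 ≤ j →
      j ≤ m → ‖iteratedFDeriv ℝ j (fun z => F.A κ (y, z)) z‖ ≤ C * (1 + ‖y.2‖) := by
  obtain ⟨C, hC0, hC⟩ := base_bd (π := π) hκ hK m
  set M : ℝ := 1 + ∑ i, ‖F.q i‖ * ‖F.a i‖ with hM
  set D : ℝ := ∑ i, C * ‖F.a i‖ with hD
  have hM1 : 1 ≤ M := by
    have : 0 ≤ ∑ i, ‖F.q i‖ * ‖F.a i‖ := Finset.sum_nonneg fun _ _ => by positivity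
    linarith
  have hD0 : 0 ≤ D := Finset.sum_nonneg fun _ _ => by positivity
  refine ⟨M + D, by linarith, fun y hy z hz j hj1 hjm => ?_⟩
  -- the decomposition
  set L : E →L[ℝ] E := ContinuousLinearMap.id ℝ E +
    ∑ i, (y.1 - 1) • (F.q i).smulRight (F.a i) with hL
  have e0 : (fun z => F.A κ (y, z)) = fun z => L z + ∑ i, (y.2 i) • (κ (π z) • F.a i) := by
    funext z
    unfold Fram.A
    rw [hL]
    simp only [_root_.add_apply, _root_.sum_apply, _root_.smul_apply,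
      ContinuousLinearMap.smulRight_apply, ContinuousLinearMap.id_apply, smul_smul]
    rw [add_assoc, ← Finset.sum_add_distrib]
    congr 1
    refine Finset.sum_congr rfl fun i _ => ?_
    rw [← add_smul, mul_comm (y.2 i)]
  have c1 : ContDiff ℝ ∞ fun z : E => κ (π z) := hκ.comp π.contDiff
  have c2 : ∀ i, ContDiff ℝ ∞ fun z : E => κ (π z) • F.a i := fun i => c1.smul contDiff_const
  have c3 : ∀ i, ContDiff ℝ ∞ fun z : E => (y.2 i) • (κ (π z) • F.a i) := fun i =>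
    contDiff_const.smul (c2 i)
  have hjt : (j : WithTop ℕ∞) ≤ ∞ := by exact_mod_cast le_top
  have e1 : iteratedFDeriv ℝ j (fun z => F.A κ (y, z)) z =
      iteratedFDeriv ℝ j (fun z => L z) z +
        ∑ i, (y.2 i) • iteratedFDeriv ℝ j (fun z => κ (π z) • F.a i) z := by
    have c4 : ContDiff ℝ ∞ fun z : E => ∑ i, (y.2 i) • (κ (π z) • F.a i) :=
      ContDiff.sum fun i _ => c3 i
    rw [e0, fun_iteratedFDeriv_add_apply (L.contDiff.contDiffAt) (c4.contDiffAt.of_le hjt),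
      iteratedFDeriv_fun_sum_apply fun i _ => (c3 i).contDiffAt.of_le hjt]
    congr 1
    exact Finset.sum_congr rfl fun i _ =>
      iteratedFDeriv_const_smul_apply' ((c2 i).contDiffAt.of_le hjt)
  rw [e1]
  have b1 : ‖iteratedFDeriv ℝ j (fun z => L z) z‖ ≤ M := by
    refine (lin_bd L hj1 z).trans ?_
    rw [hL, hM]
    refine (norm_add_le _ _).trans (add_le_add ContinuousLinearMap.norm_id_le ?_)
    refine (norm_sum_le _ _).trans (Finset.sum_le_sum fun i _ => ?_)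
    rw [norm_smul, ContinuousLinearMap.norm_smulRight_apply, Real.norm_eq_abs]
    have : |y.1 - 1| ≤ 1 := by
      rw [abs_le]; constructor <;> linarith [hy.1, hy.2]
    have h2 : 0 ≤ ‖F.q i‖ * ‖F.a i‖ := by positivity
    nlinarith
  have b2 : ∀ i, ‖iteratedFDeriv ℝ j (fun z => κ (π z) • F.a i) z‖ ≤ C * ‖F.a i‖ := by
    intro i
    have h1 : (fun z : E => κ (π z) • F.a i) =
        (ContinuousLinearMap.id ℝ ℝ).smulRight (F.a i) ∘ fun z : E => κ (π z) := by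
      funext z; simp
    rw [h1]
    refine (ContinuousLinearMap.norm_iteratedFDeriv_comp_left _ c1.contDiffAt hjt).trans ?_
    rw [ContinuousLinearMap.norm_smulRight_apply]
    have h2 := hC j hjm z hz
    have h3 : ‖ContinuousLinearMap.id ℝ ℝ‖ ≤ 1 := ContinuousLinearMap.norm_id_le
    calc ‖ContinuousLinearMap.id ℝ ℝ‖ * ‖F.a i‖ * ‖iteratedFDeriv ℝ j (fun z => κ (π z)) z‖
        ≤ 1 * ‖F.a i‖ * C := by gcongr
      _ = C * ‖F.a i‖ := by ring
  calc ‖iteratedFDeriv ℝ j (fun z => L z) z +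
        ∑ i, (y.2 i) • iteratedFDeriv ℝ j (fun z => κ (π z) • F.a i) z‖
      ≤ M + ∑ i, ‖y.2‖ * (C * ‖F.a i‖) := by
        refine (norm_add_le _ _).trans (add_le_add b1 ?_)
        refine (norm_sum_le _ _).trans (Finset.sum_le_sum fun i _ => ?_)
        rw [norm_smul]
        exact mul_le_mul (norm_le_pi_norm y.2 i) (b2 i) (norm_nonneg _) (norm_nonneg _)
    _ = M + ‖y.2‖ * D := by rw [hD, Finset.mul_sum]
    _ ≤ (M + D) * (1 + ‖y.2‖) := by
        have := norm_nonneg y.2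
        nlinarith [mul_nonneg hD0 this, mul_nonneg (zero_le_one.trans hM1) this]

/-- The rescaling of the Gaussian variable. -/
def Ph (ι : Type) (o : ℝ × (ι → ℝ)) : ℝ × (ι → ℝ) := (o.1, fun i => Real.sqrt (1 - o.1 ^ 2) * o.2 i)

omit [Fintype ι] [DecidableEq ι] in
theorem Ph_cont : Continuous (Ph ι) := by
  unfold Ph
  fun_prop

omit [DecidableEq ι] in
theorem Ph_norm {o : ℝ × (ι → ℝ)} (_ : o.1 ∈ Icc (0 : ℝ) 1) : ‖(Ph ι o).2‖ ≤ ‖o.2‖ := by
  have h1 : Real.sqrt (1 - o.1 ^ 2) ≤ 1 := by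
    rw [Real.sqrt_le_iff]
    have := sq_nonneg o.1
    exact ⟨zero_le_one, by linarith⟩
  rw [pi_norm_le_iff_of_nonneg (norm_nonneg _)]
  intro i
  change ‖Real.sqrt (1 - o.1 ^ 2) * o.2 i‖ ≤ _
  rw [norm_mul, Real.norm_of_nonneg (Real.sqrt_nonneg _)]
  calc Real.sqrt (1 - o.1 ^ 2) * ‖o.2 i‖ ≤ 1 * ‖o.2‖ := by
        gcongr
        exact norm_le_pi_norm o.2 i
    _ = _ := one_mul _

/-- The measure. -/
def mm (ι : Type) [Fintype ι] (α : ℝ) : Measure (ℝ × (ι → ℝ)) := (sm1 α).prod (gm ι)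

/-- The integrand. -/
def hh (κ : P → ℝ) (f : E → ℝ) (j : ℕ) (w : (ℝ × (ι → ℝ)) × E) : ℝ := w.1.1 ^ j * f (F.A κ w)

theorem hh_sm (hκ : ContDiff ℝ ∞ κ) {f : E → ℝ} (cf : ContDiff ℝ ∞ f) (j : ℕ) :
    ContDiff ℝ ∞ (hh F κ f j) :=
  ((contDiff_fst.comp contDiff_fst).pow j).mul (cf.comp (A_sm F hκ))

theorem hh_off {f : E → ℝ} {K : Set P} (hK : ∀ z, π z ∉ K → f z = 0) (j : ℕ)
    (w : (ℝ × (ι → ℝ)) × E) (hw : π w.2 ∉ K) : hh F κ f j w = 0 := by
  unfold hh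
  rw [hK _ (by rw [A_π]; exact hw), mul_zero]

theorem hh_bd (hκ : ContDiff ℝ ∞ κ) {f : E → ℝ} (cf : ContDiff ℝ ∞ f) (sf : HasCompactSupport f)
    (j : ℕ) {α : ℝ} (hα : -1 < α) : Bd (mm ι α) (Ph ι) (hh F κ f j) := by
  intro m
  have hK : IsCompact (π '' tsupport f) := sf.isCompact.image π.continuous
  have h0 : ∀ z, π z ∉ π '' tsupport f → f z = 0 := fun z hz =>
    image_eq_zero_of_notMem_tsupport fun h => hz ⟨z, h, rfl⟩
  obtain ⟨C, hC1, hC⟩ := A_bd F hκ hK m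
  obtain ⟨B, hB0, hB⟩ := test_bd cf sf m
  have _ := sm1_fin hα
  refine ⟨fun o => (m.factorial * B * C ^ m) * (1 + ‖o.2‖) ^ m, ?_, ?_⟩
  · exact (integrable_const (μ := sm1 α) ((m.factorial : ℝ) * B * C ^ m)).mul_prod
      (gm_mom (ι := ι) m)
  · have h1 : ∀ᵐ o ∂(mm ι α), o.1 ∈ Ioo (0 : ℝ) 1 :=
      Measure.quasiMeasurePreserving_fst.ae (sm1_ae α)
    filter_upwards [h1] with o ho z
    by_cases hz : π z ∈ π '' tsupport f
    · have hy : (Ph ι o).1 ∈ Icc (0 : ℝ) 1 := ⟨ho.1.le, ho.2.le⟩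
      have c1 : ContDiff ℝ ∞ fun z => F.A κ (Ph ι o, z) :=
        (A_sm F hκ).comp (contDiff_const.prodMk contDiff_id)
      have e1 : (fun z => hh F κ f j (Ph ι o, z)) =
          fun z => ((Ph ι o).1 ^ j) • ((f ∘ fun z => F.A κ (Ph ι o, z)) z) := by
        funext z; rfl
      have hmt : (m : WithTop ℕ∞) ≤ ∞ := by exact_mod_cast le_top
      rw [e1, iteratedFDeriv_const_smul_apply' ((cf.comp c1).contDiffAt.of_le hmt), norm_smul]
      have h2 : ‖(Ph ι o).1 ^ j‖ ≤ 1 := by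
        rw [norm_pow, Real.norm_of_nonneg hy.1]
        exact pow_le_one₀ hy.1 hy.2
      have h3 : ‖(Ph ι o).2‖ ≤ ‖o.2‖ := Ph_norm ⟨ho.1.le, ho.2.le⟩
      have h4 : 1 ≤ C * (1 + ‖o.2‖) := by
        have := norm_nonneg o.2
        nlinarith
      have h5 := norm_iteratedFDeriv_comp_le (g := f) (f := fun z => F.A κ (Ph ι o, z)) (n := m)
        cf c1 hmt z (C := B) (D := C * (1 + ‖o.2‖)) (fun i hi => hB i hi _) (fun i hi1 him => by
          have h6 := hC _ hy z hz i hi1 him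
          calc ‖iteratedFDeriv ℝ i (fun z => F.A κ (Ph ι o, z)) z‖ ≤ C * (1 + ‖(Ph ι o).2‖) := h6
            _ ≤ C * (1 + ‖o.2‖) := by gcongr
            _ ≤ (C * (1 + ‖o.2‖)) ^ i := le_self_pow₀ h4 (by omega))
      calc ‖(Ph ι o).1 ^ j‖ * ‖iteratedFDeriv ℝ m (f ∘ fun z => F.A κ (Ph ι o, z)) z‖
          ≤ 1 * (m.factorial * B * (C * (1 + ‖o.2‖)) ^ m) := by gcongr
        _ = (m.factorial * B * C ^ m) * (1 + ‖o.2‖) ^ m := by rw [mul_pow]; ring
    · have h2 : (fun z => hh F κ f j (Ph ι o, z)) =ᶠ[𝓝 z] fun _ => 0 := by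
        filter_upwards [(hK.isClosed.preimage π.continuous).isOpen_compl.mem_nhds hz] with w hw
        exact hh_off F h0 j _ hw
      rw [iter_off h2, norm_zero]
      positivity

/-- The Mehler integral. -/
def Im (κ : P → ℝ) (α : ℝ) (f : E → ℝ) (j : ℕ) (z : E) : ℝ :=
  ∫ o, hh F κ f j (Ph ι o, z) ∂(mm ι α)

variable {α : ℝ}

omit [DecidableEq ι] in
theorem Ph_meas : AEStronglyMeasurable (Ph ι) (mm ι α) := Ph_cont.aestronglyMeasurable

theorem Im_sm (hκ : ContDiff ℝ ∞ κ) {f : E → ℝ} (cf : ContDiff ℝ ∞ f)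
    (sf : HasCompactSupport f) (j : ℕ) (hα : -1 < α) : ContDiff ℝ ∞ (Im F κ α f j) :=
  par_smooth Ph_meas (hh_sm F hκ cf j) (hh_bd F hκ cf sf j hα)

theorem Im_bd (hκ : ContDiff ℝ ∞ κ) {f : E → ℝ} (cf : ContDiff ℝ ∞ f)
    (sf : HasCompactSupport f) (j : ℕ) (hα : -1 < α) (m : ℕ) :
    ∃ C, ∀ z, ‖iteratedFDeriv ℝ m (Im F κ α f j) z‖ ≤ C :=
  (par_nat Ph_meas m (hh_sm F hκ cf j) (hh_bd F hκ cf sf j hα)).2

theorem Im_off {f : E → ℝ} {K : Set P} (hK : ∀ z, π z ∉ K → f z = 0) (j : ℕ) (z : E)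
    (hz : π z ∉ K) : Im F κ α f j z = 0 := by
  unfold Im
  simp only [hh_off F hK j (Ph ι _, z) hz, integral_zero]

theorem Im_dir (hκ : ContDiff ℝ ∞ κ) {f : E → ℝ} (cf : ContDiff ℝ ∞ f)
    (sf : HasCompactSupport f) (j : ℕ) (hα : -1 < α) (k : ι) (z : E) :
    fderiv ℝ (Im F κ α f j) z (F.a k) = Im F κ α (fun z => fderiv ℝ f z (F.a k)) (j + 1) z := by
  have h := par_dir Ph_meas (hh_sm F hκ cf j) (hh_bd F hκ cf sf j hα) z (F.a k)
  unfold Im
  rw [h]
  refine integral_congr_ae (Eventually.of_forall fun o => ?_)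
  have e1 : (fun z => hh F κ f j (Ph ι o, z)) =
      fun z => (Ph ι o).1 ^ j * (fun z => f (F.A κ (Ph ι o, z))) z := rfl
  have c1 : ContDiff ℝ ∞ fun z => f (F.A κ (Ph ι o, z)) :=
    cf.comp ((A_sm F hκ).comp (contDiff_const.prodMk contDiff_id))
  simp only []
  rw [e1, fderiv_const_mul ((c1.differentiable (by simp)) z)]
  simp only [_root_.smul_apply, smul_eq_mul]
  rw [fd_comp_A F hκ cf]
  unfold hh
  simp only []
  rw [pow_succ]
  ring

end Vale.Agent.P088.R2.H961.S
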