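import Vale.Agent.P088.R2.H961.S.Meh1
import Mathlib.Analysis.Normed.Operator.Prod

/-!
# The Mehler identity
-/

open MeasureTheory Set Filter
open scoped ContDiff Topology

noncomputable section

namespace Vale.Agent.P088.R2.H961.S

variable {ι E P : Type} [Fintype ι] [DecidableEq ι] [NormedAddCommGroup E] [NormedSpace ℝ E]
  [NormedAddCommGroup P] [NormedSpace ℝ P] {π : E →L[ℝ] P} (F : Fram ι π) {κ : P → ℝ}

/-- The integrand: `(ζ, (s, τ)) ↦ f (A ((s, τ ζ), z))`. -/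
def jj (κ : P → ℝ) (f : E → ℝ) (z : E) (w : (ι → ℝ) × (ℝ × ℝ)) : ℝ :=
  f (F.A κ ((w.2.1, w.2.2 • w.1), z))

theorem jj_sm (hκ : ContDiff ℝ ∞ κ) {f : E → ℝ} (cf : ContDiff ℝ ∞ f) (z : E) :
    ContDiff ℝ ∞ (jj F κ f z) :=
  cf.comp ((A_sm F hκ).comp (((contDiff_fst.comp contDiff_snd).prodMk
    ((contDiff_snd.comp contDiff_snd).smul contDiff_fst)).prodMk contDiff_const))

/-- The linear part. -/
def Lz (κ : P → ℝ) (z : E) (ζ : ι → ℝ) : (ℝ × ℝ) →L[ℝ] E :=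
  (ContinuousLinearMap.fst ℝ ℝ ℝ).smulRight (∑ i, F.q i z • F.a i) +
    (ContinuousLinearMap.snd ℝ ℝ ℝ).smulRight (∑ i, (κ (π z) * ζ i) • F.a i)

theorem Lz_apply (z : E) (ζ : ι → ℝ) (x : ℝ × ℝ) : Lz F κ z ζ x =
    x.1 • (∑ i, F.q i z • F.a i) + x.2 • ∑ i, (κ (π z) * ζ i) • F.a i := rfl

theorem A_eq (z : E) (ζ : ι → ℝ) (x : ℝ × ℝ) : F.A κ ((x.1, x.2 • ζ), z) =
    (z - ∑ i, F.q i z • F.a i) + Lz F κ z ζ x := by
  rw [Lz_apply]
  unfold Fram.A
  simp only [Finset.smul_sum, smul_smul, Pi.smul_apply, smul_eq_mul]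
  have h : ∀ i, ((x.1 - 1) * F.q i z + κ (π z) * (x.2 * ζ i)) • F.a i =
      ((x.1 * F.q i z) • F.a i + (x.2 * (κ (π z) * ζ i)) • F.a i) - F.q i z • F.a i := by
    intro i; module
  simp only [h]
  rw [Finset.sum_sub_distrib, Finset.sum_add_distrib]
  abel

theorem Lz_bd (κ : P → ℝ) (z : E) : ∃ C : ℝ, 0 ≤ C ∧ ∀ ζ, ‖Lz F κ z ζ‖ ≤ C * (1 + ‖ζ‖) := by
  refine ⟨‖∑ i, F.q i z • F.a i‖ + ∑ i, |κ (π z)| * ‖F.a i‖,
    add_nonneg (norm_nonneg _) (Finset.sum_nonneg fun _ _ => by positivity), fun ζ => ?_⟩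
  have h1 : ‖∑ i, (κ (π z) * ζ i) • F.a i‖ ≤ (∑ i, |κ (π z)| * ‖F.a i‖) * ‖ζ‖ := by
    rw [Finset.sum_mul]
    refine (norm_sum_le _ _).trans (Finset.sum_le_sum fun i _ => ?_)
    rw [norm_smul, norm_mul, Real.norm_eq_abs]
    have := norm_le_pi_norm ζ i
    calc |κ (π z)| * ‖ζ i‖ * ‖F.a i‖ ≤ |κ (π z)| * ‖ζ‖ * ‖F.a i‖ := by gcongr
      _ = _ := by ring
  have h2 : ‖Lz F κ z ζ‖ ≤ ‖∑ i, F.q i z • F.a i‖ + ‖∑ i, (κ (π z) * ζ i) • F.a i‖ := by
    unfold Lz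
    refine (norm_add_le _ _).trans (add_le_add ?_ ?_)
    · rw [ContinuousLinearMap.norm_smulRight_apply]
      have := ContinuousLinearMap.norm_fst_le ℝ ℝ ℝ
      nlinarith [norm_nonneg (∑ i, F.q i z • F.a i)]
    · rw [ContinuousLinearMap.norm_smulRight_apply]
      have := ContinuousLinearMap.norm_snd_le ℝ ℝ ℝ
      nlinarith [norm_nonneg (∑ i, (κ (π z) * ζ i) • F.a i)]
  have h3 : 0 ≤ ∑ i, |κ (π z)| * ‖F.a i‖ := Finset.sum_nonneg fun _ _ => by positivity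
  have h4 := norm_nonneg ζ
  have h5 := norm_nonneg (∑ i, F.q i z • F.a i)
  nlinarith [mul_nonneg h5 h4]

theorem jj_bd {f : E → ℝ} (cf : ContDiff ℝ ∞ f) (sf : HasCompactSupport f)
    (z : E) : Bd (gm ι) (id : (ι → ℝ) → (ι → ℝ)) (jj F κ f z) := by
  intro m
  obtain ⟨C, hC0, hC⟩ := Lz_bd F κ z
  obtain ⟨B, hB0, hB⟩ := test_bd cf sf m
  refine ⟨fun ζ => (B * C ^ m) * (1 + ‖ζ‖) ^ m, (gm_mom m).const_mul _,
    Eventually.of_forall fun ζ x => ?_⟩
  have e1 : (fun x => jj F κ f z (id ζ, x)) =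
      (fun v => f ((z - ∑ i, F.q i z • F.a i) + v)) ∘ Lz F κ z ζ := by
    funext x
    change f (F.A κ ((x.1, x.2 • ζ), z)) = _
    rw [A_eq]; rfl
  have c1 : ContDiff ℝ ∞ fun v => f ((z - ∑ i, F.q i z • F.a i) + v) :=
    cf.comp (contDiff_const.add contDiff_id)
  rw [e1, ContinuousLinearMap.iteratedFDeriv_comp_right _ c1 x (by exact_mod_cast le_top),
    iteratedFDeriv_comp_add_left]
  refine (ContinuousMultilinearMap.norm_compContinuousLinearMap_le _ _).trans ?_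
  simp only [Finset.prod_const, Finset.card_univ, Fintype.card_fin]
  calc _ ≤ B * (C * (1 + ‖ζ‖)) ^ m := by
        gcongr
        · exact hB m le_rfl _
        · exact hC ζ
    _ = _ := by rw [mul_pow]; ring

/-- The Gaussian integral. -/
def Jf (κ : P → ℝ) (f : E → ℝ) (z : E) (x : ℝ × ℝ) : ℝ := ∫ ζ, jj F κ f z (ζ, x) ∂(gm ι)

omit [DecidableEq ι] in
theorem id_meas : AEStronglyMeasurable (id : (ι → ℝ) → (ι → ℝ)) (gm ι) :=
  continuous_id.aestronglyMeasurable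

theorem Jf_sm (hκ : ContDiff ℝ ∞ κ) {f : E → ℝ} (cf : ContDiff ℝ ∞ f)
    (sf : HasCompactSupport f) (z : E) : ContDiff ℝ ∞ (Jf F κ f z) :=
  par_smooth id_meas (jj_sm F hκ cf z) (jj_bd F cf sf z)

/-- `∂_{a_i} f`. -/
def fa (f : E → ℝ) (i : ι) (z : E) : ℝ := fderiv ℝ f z (F.a i)

theorem fa_sm {f : E → ℝ} (cf : ContDiff ℝ ∞ f) (i : ι) : ContDiff ℝ ∞ (fa F f i) :=
  (cf.fderiv_right (m := ∞) (by simp)).clm_apply contDiff_const

theorem fa_cs {f : E → ℝ} (sf : HasCompactSupport f) (i : ι) : HasCompactSupport (fa F f i) :=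
  sf.fderiv_apply ℝ (F.a i)

theorem jj_d (_ : ContDiff ℝ ∞ κ) {f : E → ℝ} (cf : ContDiff ℝ ∞ f) (z : E) (ζ : ι → ℝ)
    (x v : ℝ × ℝ) : fderiv ℝ (fun x => jj F κ f z (id ζ, x)) x v =
      fderiv ℝ f (F.A κ ((x.1, x.2 • ζ), z)) (Lz F κ z ζ v) := by
  have e1 : (fun x => jj F κ f z (id ζ, x)) =
      f ∘ fun x => (z - ∑ i, F.q i z • F.a i) + Lz F κ z ζ x := by
    funext x
    change f (F.A κ ((x.1, x.2 • ζ), z)) = _
    rw [A_eq]; rfl
  have h1 : HasFDerivAt (fun x => (z - ∑ i, F.q i z • F.a i) + Lz F κ z ζ x) (Lz F κ z ζ) x :=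
    (Lz F κ z ζ).hasFDerivAt.const_add _
  have h2 := ((cf.differentiable (by simp))
    ((z - ∑ i, F.q i z • F.a i) + Lz F κ z ζ x)).hasFDerivAt.comp x h1
  rw [e1, h2.fderiv, A_eq]
  rfl

theorem jj_int (hκ : ContDiff ℝ ∞ κ) {f : E → ℝ} (cf : ContDiff ℝ ∞ f)
    (sf : HasCompactSupport f) (z : E) (x : ℝ × ℝ) :
    Integrable (fun ζ => f (F.A κ ((x.1, x.2 • ζ), z))) (gm ι) :=
  par_int (F := ℝ) id_meas (jj_sm F hκ cf z) (jj_bd F cf sf z) x

theorem Jf_s (hκ : ContDiff ℝ ∞ κ) {f : E → ℝ} (cf : ContDiff ℝ ∞ f)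
    (sf : HasCompactSupport f) (z : E) (x : ℝ × ℝ) :
    fderiv ℝ (Jf F κ f z) x (1, 0) = ∑ i, F.q i z * Jf F κ (fa F f i) z x := by
  have h := par_dir id_meas (jj_sm F hκ cf z) (jj_bd F cf sf z) x (1, 0)
  have e : fderiv ℝ (Jf F κ f z) x (1, 0) = _ := h
  rw [e]
  have e2 : ∀ ζ, fderiv ℝ (fun x => jj F κ f z (id ζ, x)) x (1, 0) =
      ∑ i, F.q i z * fa F f i (F.A κ ((x.1, x.2 • ζ), z)) := by
    intro ζ
    rw [jj_d F hκ cf, Lz_apply]
    simp only [one_smul, zero_smul, add_zero, map_sum, map_smul, smul_eq_mul]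
    rfl
  simp only [e2]
  rw [integral_finsetSum _ fun i _ =>
    (jj_int F hκ (fa_sm F cf i) (fa_cs F sf i) z x).const_mul _]
  refine Finset.sum_congr rfl fun i _ => ?_
  rw [integral_const_mul]
  rfl

/-- Integration by parts. -/
theorem Jf_ibp (hκ : ContDiff ℝ ∞ κ) {f : E → ℝ} (cf : ContDiff ℝ ∞ f)
    (sf : HasCompactSupport f) (z : E) (x : ℝ × ℝ) (i : ι) :
    ∫ ζ, ζ i * f (F.A κ ((x.1, x.2 • ζ), z)) ∂(gm ι) =
      κ (π z) * x.2 * Jf F κ (fa F f i) z x := by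
  have c1 : ContDiff ℝ ∞ fun ζ : ι → ℝ => F.A κ ((x.1, x.2 • ζ), z) :=
    (A_sm F hκ).comp ((contDiff_const.prodMk (contDiff_id.const_smul x.2)).prodMk
      contDiff_const)
  have c2 : ContDiff ℝ ∞ fun ζ : ι → ℝ => f (F.A κ ((x.1, x.2 • ζ), z)) := cf.comp c1
  -- the derivative
  have d1 : ∀ ζ : ι → ℝ, fderiv ℝ (fun ζ => f (F.A κ ((x.1, x.2 • ζ), z))) ζ (Pi.single i 1) =
      κ (π z) * x.2 * fa F f i (F.A κ ((x.1, x.2 • ζ), z)) := by
    intro ζ
    have h1 : DifferentiableAt ℝ (fun ζ : ι → ℝ => f (F.A κ ((x.1, x.2 • ζ), z))) ζ :=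
      (c2.differentiable (by simp)) ζ
    have h2 : DifferentiableAt ℝ f (F.A κ ((x.1, x.2 • ζ), z)) :=
      (cf.differentiable (by simp)) _
    have e2 : fderiv ℝ f (F.A κ ((x.1, x.2 • ζ), z)) ((κ (π z) * x.2) • F.a i) =
        lineDeriv ℝ f (F.A κ ((x.1, x.2 • ζ), z)) ((κ (π z) * x.2) • F.a i) :=
      h2.lineDeriv_eq_fderiv.symm
    unfold fa
    rw [← smul_eq_mul (a := κ (π z) * x.2), ← map_smul, e2, ← h1.lineDeriv_eq_fderiv]
    unfold lineDeriv
    congr 1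
    funext t
    change f (F.A κ ((x.1, x.2 • (ζ + t • Pi.single i 1)), z)) =
      f (F.A κ ((x.1, x.2 • ζ), z) + t • (κ (π z) * x.2) • F.a i)
    congr 1
    unfold Fram.A
    simp only [Pi.smul_apply, Pi.add_apply, smul_eq_mul]
    have h3 : ∀ j, ((x.1 - 1) * F.q j z + κ (π z) * (x.2 * (ζ j + t * (Pi.single i 1 : ι → ℝ) j)))
        • F.a j = ((x.1 - 1) * F.q j z + κ (π z) * (x.2 * ζ j)) • F.a j +
          (if i = j then (t * (κ (π z) * x.2)) • F.a j else 0) := by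
      intro j
      by_cases hij : i = j
      · subst hij
        simp only [Pi.single_eq_same, if_true]
        rw [← add_smul]
        congr 1
        ring
      · simp only [Pi.single_eq_of_ne (Ne.symm hij), if_neg hij, mul_zero, add_zero]
    simp only [h3]
    rw [Finset.sum_add_distrib, Finset.sum_ite_eq Finset.univ i, if_pos (Finset.mem_univ i),
      smul_smul, add_assoc]
  obtain ⟨B, hB0, hB⟩ := test_bd cf sf 0
  obtain ⟨B', hB0', hB'⟩ := test_bd (fa_sm F cf i) (fa_cs F sf i) 0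
  rw [gm_ibp c2 (C := B) (D := |κ (π z) * x.2| * B') (N := 0) (fun ζ => ?_) i fun ζ => ?_]
  · simp only [d1]
    rw [integral_const_mul]
    rfl
  · have := hB 0 le_rfl (F.A κ ((x.1, x.2 • ζ), z))
    rw [norm_iteratedFDeriv_zero] at this
    exact this
  · rw [d1, abs_mul, pow_zero, mul_one]
    have := hB' 0 le_rfl (F.A κ ((x.1, x.2 • ζ), z))
    rw [norm_iteratedFDeriv_zero] at this
    gcongr
    exact this

theorem Jf_t (hκ : ContDiff ℝ ∞ κ) {f : E → ℝ} (cf : ContDiff ℝ ∞ f)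
    (sf : HasCompactSupport f) (z : E) (x : ℝ × ℝ) :
    fderiv ℝ (Jf F κ f z) x (0, 1) =
      κ (π z) ^ 2 * x.2 * ∑ i, Jf F κ (fa F (fa F f i) i) z x := by
  have h := par_dir id_meas (jj_sm F hκ cf z) (jj_bd F cf sf z) x (0, 1)
  have e : fderiv ℝ (Jf F κ f z) x (0, 1) = _ := h
  rw [e]
  have e2 : ∀ ζ, fderiv ℝ (fun x => jj F κ f z (id ζ, x)) x (0, 1) =
      ∑ i, κ (π z) * (ζ i * fa F f i (F.A κ ((x.1, x.2 • ζ), z))) := by
    intro ζ
    rw [jj_d F hκ cf, Lz_apply]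
    simp only [one_smul, zero_smul, zero_add, map_sum, map_smul, smul_eq_mul, mul_assoc]
    rfl
  simp only [e2]
  have i1 : ∀ i, Integrable (fun ζ : ι → ℝ => ζ i * fa F f i (F.A κ ((x.1, x.2 • ζ), z)))
      (gm ι) := by
    intro i
    obtain ⟨B', hB0', hB'⟩ := test_bd (fa_sm F cf i) (fa_cs F sf i) 0
    refine ((gm_mom (ι := ι) 1).const_mul B').mono' ?_ (Eventually.of_forall fun ζ => ?_)
    · have c1 : ContDiff ℝ ∞ fun ζ : ι → ℝ => F.A κ ((x.1, x.2 • ζ), z) :=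
        (A_sm F hκ).comp ((contDiff_const.prodMk (contDiff_id.const_smul x.2)).prodMk
          contDiff_const)
      exact ((continuous_apply i).mul ((fa_sm F cf i).comp c1).continuous).aestronglyMeasurable
    · have := hB' 0 le_rfl (F.A κ ((x.1, x.2 • ζ), z))
      rw [norm_iteratedFDeriv_zero] at this
      have h2 := norm_le_pi_norm ζ i
      rw [norm_mul, pow_one]
      calc ‖ζ i‖ * ‖fa F f i (F.A κ ((x.1, x.2 • ζ), z))‖ ≤ (1 + ‖ζ‖) * B' := by
            gcongr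
            linarith
        _ = _ := by ring
  rw [integral_finsetSum _ fun i _ => (i1 i).const_mul _, Finset.mul_sum]
  refine Finset.sum_congr rfl fun i _ => ?_
  rw [integral_const_mul, Jf_ibp F hκ (fa_sm F cf i) (fa_cs F sf i)]
  ring

/-- The curve. -/
def cu (s : ℝ) : ℝ × ℝ := (s, Real.sqrt (1 - s ^ 2))

theorem cu_cont : Continuous cu := by unfold cu; fun_prop

theorem cu_d {s : ℝ} (hs : s ∈ Ioo (0 : ℝ) 1) :
    HasDerivAt cu (1, -s / Real.sqrt (1 - s ^ 2)) s := by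
  have h1 : 1 - s ^ 2 ≠ 0 := by nlinarith [hs.1, hs.2]
  have h2 : HasDerivAt (fun s : ℝ => 1 - s ^ 2) (-(2 * s)) s := by
    have := ((hasDerivAt_id s).pow 2).const_sub 1
    simpa using this
  have h3 := h2.sqrt h1
  have h4 := (hasDerivAt_id s).prodMk h3
  have e : -(2 * s) / (2 * Real.sqrt (1 - s ^ 2)) = -s / Real.sqrt (1 - s ^ 2) := by
    have : -(2 * s) = 2 * (-s) := by ring
    rw [this, mul_div_mul_left _ _ (by norm_num)]
  rw [e] at h4
  exact h4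

theorem Jf_cu_d (hκ : ContDiff ℝ ∞ κ) {f : E → ℝ} (cf : ContDiff ℝ ∞ f)
    (sf : HasCompactSupport f) (z : E) {s : ℝ} (hs : s ∈ Ioo (0 : ℝ) 1) :
    HasDerivAt (fun s => Jf F κ f z (cu s))
      (∑ i, F.q i z * Jf F κ (fa F f i) z (cu s) -
        κ (π z) ^ 2 * s * ∑ i, Jf F κ (fa F (fa F f i) i) z (cu s)) s := by
  have h1 : HasFDerivAt (Jf F κ f z) (fderiv ℝ (Jf F κ f z) (cu s)) (cu s) :=
    (((Jf_sm F hκ cf sf z).differentiable (by simp)) (cu s)).hasFDerivAt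
  have h2 := h1.comp_hasDerivAt s (cu_d hs)
  have h3 : 0 < 1 - s ^ 2 := by nlinarith [hs.1, hs.2]
  have h4 : Real.sqrt (1 - s ^ 2) ≠ 0 := (Real.sqrt_pos.2 h3).ne'
  have e1 : ((1 : ℝ), -s / Real.sqrt (1 - s ^ 2)) =
      ((1 : ℝ), (0 : ℝ)) + (-s / Real.sqrt (1 - s ^ 2)) • ((0 : ℝ), (1 : ℝ)) := by
    ext <;> simp
  have e2 : fderiv ℝ (Jf F κ f z) (cu s) (1, -s / Real.sqrt (1 - s ^ 2)) =
      ∑ i, F.q i z * Jf F κ (fa F f i) z (cu s) -
        κ (π z) ^ 2 * s * ∑ i, Jf F κ (fa F (fa F f i) i) z (cu s) := by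
    rw [e1, map_add, map_smul, Jf_s F hκ cf sf, Jf_t F hκ cf sf, smul_eq_mul]
    change _ + -s / Real.sqrt (1 - s ^ 2) * (κ (π z) ^ 2 * Real.sqrt (1 - s ^ 2) * _) = _
    field_simp
    ring
  rw [e2] at h2
  exact h2

variable {α : ℝ}

/-- The Mehler integral is an integral over the curve. -/
theorem Im_eq (hκ : ContDiff ℝ ∞ κ) {f : E → ℝ} (cf : ContDiff ℝ ∞ f)
    (sf : HasCompactSupport f) (j : ℕ) (hα : -1 < α) (z : E) :
    Integrable (fun s => s ^ j * Jf F κ f z (cu s)) (sm1 α) ∧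
      Im F κ α f j z = ∫ s, s ^ j * Jf F κ f z (cu s) ∂(sm1 α) := by
  have _ := sm1_fin hα
  have h1 : Integrable (fun o => hh F κ f j (Ph ι o, z)) ((sm1 α).prod (gm ι)) :=
    par_int (F := ℝ) Ph_meas (hh_sm F hκ cf j) (hh_bd F hκ cf sf j hα) z
  have e1 : ∀ s, ∫ ζ, hh F κ f j (Ph ι (s, ζ), z) ∂(gm ι) = s ^ j * Jf F κ f z (cu s) := by
    intro s
    unfold hh Jf jj
    rw [← integral_const_mul]
    rfl
  have h2 := h1.integral_prod_left
  have h3 := integral_prod _ h1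
  simp only [e1] at h2 h3
  exact ⟨h2, h3⟩

/-- **The Mehler identity.** -/
theorem meh (hκ : ContDiff ℝ ∞ κ) {f : E → ℝ} (cf : ContDiff ℝ ∞ f)
    (sf : HasCompactSupport f) (hα : 0 < α + 1) (z : E) :
    (α + 1) * Im F κ α f 0 z + ∑ i, F.q i z * Im F κ α (fa F f i) 1 z -
      κ (π z) ^ 2 * ∑ i, Im F κ α (fa F (fa F f i) i) 2 z = gZ ι * f z := by
  have hα' : -1 < α := by linarith
  have c0 : Continuous fun s => Jf F κ f z (cu s) := (Jf_sm F hκ cf sf z).continuous.comp cu_cont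
  have c1 : ∀ i, Continuous fun s => Jf F κ (fa F f i) z (cu s) := fun i =>
    (Jf_sm F hκ (fa_sm F cf i) (fa_cs F sf i) z).continuous.comp cu_cont
  have c2 : ∀ i, Continuous fun s => Jf F κ (fa F (fa F f i) i) z (cu s) := fun i =>
    (Jf_sm F hκ (fa_sm F (fa_sm F cf i) i) (fa_cs F (fa_cs F sf i) i) z).continuous.comp cu_cont
  -- the fundamental theorem
  have key := intervalIntegral.integral_eq_sub_of_hasDerivAt_of_le (a := 0) (b := 1)
    (f := fun s => s ^ (α + 1) * Jf F κ f z (cu s))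
    (f' := fun s => s ^ α * ((α + 1) * (s ^ 0 * Jf F κ f z (cu s)) +
      ∑ i, F.q i z * (s ^ 1 * Jf F κ (fa F f i) z (cu s)) -
        κ (π z) ^ 2 * ∑ i, s ^ 2 * Jf F κ (fa F (fa F f i) i) z (cu s))) zero_le_one
    (((Real.continuous_rpow_const hα.le).mul c0).continuousOn) (fun s hs => by
      have h1 := (Real.hasDerivAt_rpow_const (p := α + 1) (Or.inl hs.1.ne')).mul
        (Jf_cu_d F hκ cf sf z hs)
      have e1 : s ^ (α + 1) = s ^ α * s := Real.rpow_add_one hs.1.ne' α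
      have e2 : α + 1 - 1 = α := by ring
      refine h1.congr_deriv ?_
      rw [e1, e2, ← Finset.mul_sum, pow_zero, pow_one]
      have e3 : ∑ i, F.q i z * (s * Jf F κ (fa F f i) z (cu s)) =
          s * ∑ i, F.q i z * Jf F κ (fa F f i) z (cu s) := by
        rw [Finset.mul_sum]
        exact Finset.sum_congr rfl fun i _ => by ring
      rw [e3]
      ring) (by
      refine (intervalIntegral.intervalIntegrable_rpow' hα').mul_continuousOn ?_
      refine Continuous.continuousOn ?_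
      refine Continuous.sub (Continuous.add ?_ ?_) ?_
      · exact continuous_const.mul ((continuous_id.pow 0).mul c0)
      · exact continuous_finsetSum _ fun i _ =>
          continuous_const.mul ((continuous_id.pow 1).mul (c1 i))
      · exact continuous_const.mul (continuous_finsetSum _ fun i _ =>
          (continuous_id.pow 2).mul (c2 i)))
  rw [← sm1_integral] at key
  obtain ⟨i0, r0⟩ := Im_eq F hκ cf sf 0 hα' z
  have h1 := fun i => Im_eq F hκ (fa_sm F cf i) (fa_cs F sf i) 1 hα' z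
  have h2 := fun i => Im_eq F hκ (fa_sm F (fa_sm F cf i) i) (fa_cs F (fa_cs F sf i) i) 2 hα' z
  rw [integral_sub, integral_add, integral_const_mul, integral_const_mul,
    integral_finsetSum _ fun i _ => (h1 i).1.const_mul _,
    integral_finsetSum _ fun i _ => (h2 i).1, ← r0] at key
  · simp only [integral_const_mul, ← (h1 _).2, ← (h2 _).2] at key
    rw [key]
    have e1 : (1 : ℝ) ^ (α + 1) = 1 := Real.one_rpow _
    have e0 : (0 : ℝ) ^ (α + 1) = 0 := Real.zero_rpow hα.ne'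
    have e2 : Jf F κ f z (cu 1) = gZ ι * f z := by
      have h3 : ∀ ζ : ι → ℝ, F.A κ (((cu 1).1, (cu 1).2 • ζ), z) = z := by
        intro ζ
        have h4 : (cu 1).1 = 1 := rfl
        have h5 : (cu 1).2 = 0 := by
          change Real.sqrt (1 - 1 ^ 2) = 0
          norm_num
        unfold Fram.A
        simp [h4, h5]
      unfold Jf jj
      simp only [h3]
      rw [gm_integral, integral_mul_const]
      rfl
    simp only [e1, e0, e2]
    ring
  · exact i0.const_mul _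
  · exact integrable_finsetSum _ fun i _ => (h1 i).1.const_mul _
  · exact (i0.const_mul _).add (integrable_finsetSum _ fun i _ => (h1 i).1.const_mul _)
  · exact (integrable_finsetSum _ fun i _ => (h2 i).1).const_mul _

end Vale.Agent.P088.R2.H961.S
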