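import Vale.Agent.P088.R2.H961.S.Meh2
import Mathlib.Analysis.Normed.Module.FiniteDimension
import Mathlib.Analysis.SpecialFunctions.ExpDeriv

/-!
# The inverse of `B₂ = ∑ D_k^* D_k + (n - 2) E`
-/

open MeasureTheory Set Filter
open scoped ContDiff Topology

noncomputable section

namespace Vale.Agent.P088.R2.H961.S

variable {ι E P : Type} [Fintype ι] [DecidableEq ι] [NormedAddCommGroup E] [NormedSpace ℝ E]
  [NormedAddCommGroup P] [NormedSpace ℝ P] {π : E →L[ℝ] P} (F : Fram ι π) {κ : P → ℝ}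

/-! ## Gaussians are rapidly decreasing -/

theorem iter_exp (j : ℕ) (x : ℝ) : ‖iteratedFDeriv ℝ j Real.exp x‖ = Real.exp x := by
  rw [norm_iteratedFDeriv_eq_norm_iteratedDeriv, iteratedDeriv_eq_iterate, Real.iter_deriv_exp,
    Real.norm_of_nonneg (Real.exp_pos x).le]

/-- The exponent. -/
def ps (e : P → ℝ) (ce : ContDiff ℝ ∞ e) : Mu π :=
  (-(1 / 2) : ℝ) • (bs e ce * ∑ i, ln (F.q i) * ln (F.q i))

theorem ps_apply (e : P → ℝ) (ce : ContDiff ℝ ∞ e) (z : E) :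
    (ps F e ce : E → ℝ) z = -(1 / 2) * (e (π z) * ∑ i, F.q i z * F.q i z) := by
  have h : ((∑ i, ln (F.q i) * ln (F.q i) : Mu π) : E → ℝ) z = ∑ i, F.q i z * F.q i z := by
    have h1 : ((∑ i, ln (F.q i) * ln (F.q i) : Mu π) : E → ℝ) =
        ∑ i, ((ln (F.q i) * ln (F.q i) : Mu π) : E → ℝ) :=
      map_sum (Mu π).val (fun i => ln (F.q i) * ln (F.q i)) Finset.univ
    rw [h1, Finset.sum_apply]
    rfl
  change -(1 / 2) * (e (π z) * ((∑ i, ln (F.q i) * ln (F.q i) : Mu π) : E → ℝ) z) = _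
  rw [h]

variable {e : P → ℝ}

omit [NormedSpace ℝ P] in
theorem low_bd (ce : Continuous e) (pe : ∀ p, 0 < e p) {K : Set P} (hK : IsCompact K) :
    ∃ c : ℝ, 0 < c ∧ ∀ p ∈ K, c ≤ e p := by
  obtain ⟨B, hB⟩ := hK.exists_bound_of_continuousOn
    (f := fun p => (e p)⁻¹) (ce.inv₀ fun p => (pe p).ne').continuousOn
  refine ⟨(|B| + 1)⁻¹, by positivity, fun p hp => ?_⟩
  have h1 := hB p hp
  rw [Real.norm_of_nonneg (inv_nonneg.2 (pe p).le)] at h1
  have h2 : (e p)⁻¹ ≤ |B| + 1 := by linarith [le_abs_self B]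
  rw [inv_le_comm₀ (by positivity) (pe p)]
  exact h2

theorem norm_bd [FiniteDimensional ℝ E] {K : Set P} (hK : IsCompact K) :
    ∃ A : ℝ, 0 ≤ A ∧ ∀ z, π z ∈ K → 1 + ‖z‖ ≤ A * (1 + ‖fun i => F.q i z‖) := by
  obtain ⟨M, hM⟩ := hK.isBounded.exists_norm_le
  set T : E →ₗ[ℝ] P × (ι → ℝ) :=
    (π : E →ₗ[ℝ] P).prod (LinearMap.pi fun i => (F.q i : E →ₗ[ℝ] ℝ)) with hT
  have hk : LinearMap.ker T = ⊥ := by
    rw [LinearMap.ker_eq_bot']
    intro z hz
    have h1 : π z = 0 := congrArg Prod.fst hz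
    have h2 : (fun i => F.q i z) = 0 := congrArg Prod.snd hz
    exact F.inj z h1 fun i => congrFun h2 i
  obtain ⟨A, hA0, hA⟩ := T.exists_antilipschitzWith hk
  refine ⟨1 + A + A * |M|, by positivity, fun z hz => ?_⟩
  have h1 := hA.le_mul_dist z 0
  rw [dist_zero_right, map_zero, dist_zero_right] at h1
  have h2 : ‖T z‖ ≤ |M| + ‖fun i => F.q i z‖ := by
    change max ‖π z‖ ‖fun i => F.q i z‖ ≤ _
    have h3 := hM _ hz
    have h4 := le_abs_self M
    have h5 := norm_nonneg fun i => F.q i z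
    exact max_le (by linarith) (by linarith [abs_nonneg M])
  have h3 : (0 : ℝ) ≤ A := A.2
  have h5 := norm_nonneg fun i => F.q i z
  have h6 : (A : ℝ) * ‖T z‖ ≤ A * (|M| + ‖fun i => F.q i z‖) := by gcongr
  have h7 : 0 ≤ (A : ℝ) * |M| := mul_nonneg h3 (abs_nonneg M)
  nlinarith [mul_nonneg h7 h5, mul_nonneg h3 h5]

/-- Gaussians are rapidly decreasing over compact sets. -/
theorem G_rd [FiniteDimensional ℝ E] (ce : ContDiff ℝ ∞ e) (pe : ∀ p, 0 < e p) {K : Set P}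
    (hK : IsCompact K) (k m : ℕ) : ∃ C : ℝ, 0 ≤ C ∧ ∀ j ≤ m, ∀ z, π z ∈ K →
      (1 + ‖z‖) ^ k * ‖iteratedFDeriv ℝ j (fun z => Real.exp ((ps F e ce : E → ℝ) z)) z‖ ≤ C := by
  obtain ⟨k', C', hC'0, hC'⟩ := (ps F e ce).2.2.unif hK m
  obtain ⟨c, hc0, hc⟩ := low_bd ce.continuous pe hK
  obtain ⟨A, hA0, hA⟩ := norm_bd F hK
  obtain ⟨D, hD⟩ := pow_exp_bd (c / 2) (by positivity) (k + k' * m)
  have hD0 : 0 ≤ D := le_trans (by positivity) (hD 0 le_rfl)
  refine ⟨m.factorial * (1 + C') ^ m * A ^ (k + k' * m) * D, by positivity, fun j hj z hz => ?_⟩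
  set ψ : E → ℝ := (ps F e ce : E → ℝ) with hψ
  have cψ : ContDiff ℝ ∞ ψ := scd _
  have h1 : 1 ≤ (1 + C') * (1 + ‖z‖) ^ k' := by
    have : 1 ≤ (1 + ‖z‖) ^ k' := one_le_pow₀ (one_le_n z)
    nlinarith
  have h2 := norm_iteratedFDeriv_comp_le (g := Real.exp) (f := ψ) (n := j)
    Real.contDiff_exp cψ (by exact_mod_cast le_top) z (C := Real.exp (ψ z))
    (D := (1 + C') * (1 + ‖z‖) ^ k') (fun i _ => (iter_exp i _).le) (fun i hi1 hij => by
      calc ‖iteratedFDeriv ℝ i ψ z‖ ≤ C' * (1 + ‖z‖) ^ k' := hC' i (hij.trans hj) z hz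
        _ ≤ (1 + C') * (1 + ‖z‖) ^ k' := by gcongr; linarith
        _ ≤ _ := le_self_pow₀ h1 (by omega))
  have h3 : ‖iteratedFDeriv ℝ j (fun z => Real.exp (ψ z)) z‖ ≤
      m.factorial * Real.exp (ψ z) * ((1 + C') * (1 + ‖z‖) ^ k') ^ m := by
    have : (fun z => Real.exp (ψ z)) = Real.exp ∘ ψ := rfl
    rw [this]
    refine h2.trans ?_
    have e1 : (j.factorial : ℝ) ≤ m.factorial := by exact_mod_cast Nat.factorial_le hj
    have e2 : ((1 + C') * (1 + ‖z‖) ^ k') ^ j ≤ ((1 + C') * (1 + ‖z‖) ^ k') ^ m :=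
      pow_le_pow_right₀ h1 hj
    gcongr
  have h4 : ψ z ≤ -(c / 2 * ‖fun i => F.q i z‖ ^ 2) := by
    rw [hψ, ps_apply]
    have h5 := norm_sq_le fun i => F.q i z
    have h6 : ∑ i, F.q i z * F.q i z = ∑ i, (F.q i z) ^ 2 :=
      Finset.sum_congr rfl fun i _ => (sq _).symm
    rw [h6]
    have h7 := hc _ hz
    have h8 : 0 ≤ ∑ i, (F.q i z) ^ 2 := Finset.sum_nonneg fun _ _ => sq_nonneg _
    have h9 : c * ‖fun i => F.q i z‖ ^ 2 ≤ e (π z) * ∑ i, (F.q i z) ^ 2 :=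
      mul_le_mul h7 h5 (by positivity) (pe _).le
    linarith
  calc (1 + ‖z‖) ^ k * ‖iteratedFDeriv ℝ j (fun z => Real.exp (ψ z)) z‖
      ≤ (1 + ‖z‖) ^ k * (m.factorial * Real.exp (-(c / 2 * ‖fun i => F.q i z‖ ^ 2)) *
          ((1 + C') * (1 + ‖z‖) ^ k') ^ m) := by
        refine mul_le_mul_of_nonneg_left (h3.trans ?_) (by positivity)
        gcongr
    _ = m.factorial * (1 + C') ^ m * ((1 + ‖z‖) ^ (k + k' * m) *
          Real.exp (-(c / 2 * ‖fun i => F.q i z‖ ^ 2))) := by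
        rw [mul_pow, ← pow_mul, pow_add]; ring
    _ ≤ m.factorial * (1 + C') ^ m * ((A * (1 + ‖fun i => F.q i z‖)) ^ (k + k' * m) *
          Real.exp (-(c / 2 * ‖fun i => F.q i z‖ ^ 2))) := by
        have := hA z hz
        gcongr
    _ = m.factorial * (1 + C') ^ m * A ^ (k + k' * m) *
          ((1 + ‖fun i => F.q i z‖) ^ (k + k' * m) *
          Real.exp (-(c / 2 * ‖fun i => F.q i z‖ ^ 2))) := by
        rw [mul_pow]; ring
    _ ≤ m.factorial * (1 + C') ^ m * A ^ (k + k' * m) * D := by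
        have := hD _ (norm_nonneg fun i => F.q i z)
        gcongr

/-- A Gaussian times a function with bounded derivatives. -/
theorem GU_rd [FiniteDimensional ℝ E] (ce : ContDiff ℝ ∞ e) (pe : ∀ p, 0 < e p) {K : Set P}
    (hK : IsCompact K) {U : E → ℝ} (cU : ContDiff ℝ ∞ U)
    (hU : ∀ m : ℕ, ∃ C, ∀ z, ‖iteratedFDeriv ℝ m U z‖ ≤ C) (h0 : ∀ z, π z ∉ K → U z = 0) :
    Rd fun z => Real.exp ((ps F e ce : E → ℝ) z) * U z := by
  intro k m
  obtain ⟨C, hC0, hC⟩ := G_rd F ce pe hK k m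
  choose D hD using hU
  set G : E → ℝ := fun z => Real.exp ((ps F e ce : E → ℝ) z) with hG
  have cG : ContDiff ℝ ∞ G := Real.contDiff_exp.comp (scd _)
  refine ⟨∑ i ∈ Finset.range (m + 1), (m.choose i : ℝ) * C * |D (m - i)|, fun z => ?_⟩
  by_cases hz : π z ∈ K
  · have h1 := norm_iteratedFDeriv_mul_le cG cU z (n := m) (by exact_mod_cast le_top)
    calc (1 + ‖z‖) ^ k * ‖iteratedFDeriv ℝ m (fun z => G z * U z) z‖
        ≤ (1 + ‖z‖) ^ k * ∑ i ∈ Finset.range (m + 1), (m.choose i : ℝ) *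
          ‖iteratedFDeriv ℝ i G z‖ * ‖iteratedFDeriv ℝ (m - i) U z‖ := by gcongr
      _ = ∑ i ∈ Finset.range (m + 1), (m.choose i : ℝ) *
          ((1 + ‖z‖) ^ k * ‖iteratedFDeriv ℝ i G z‖) * ‖iteratedFDeriv ℝ (m - i) U z‖ := by
          rw [Finset.mul_sum]
          exact Finset.sum_congr rfl fun i _ => by ring
      _ ≤ ∑ i ∈ Finset.range (m + 1), (m.choose i : ℝ) * C * |D (m - i)| := by
          refine Finset.sum_le_sum fun i hi => ?_
          have hi' : i ≤ m := by have := Finset.mem_range.1 hi; omega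
          gcongr
          · exact hC i hi' z hz
          · exact (hD _ z).trans (le_abs_self _)
  · have hn : {w : E | π w ∉ K} ∈ nhds z :=
      (hK.isClosed.preimage π.continuous).isOpen_compl.mem_nhds hz
    have h1 : (fun z => G z * U z) =ᶠ[nhds z] fun _ => 0 := by
      filter_upwards [hn] with w hw
      rw [h0 w hw, mul_zero]
    rw [iter_off h1, norm_zero, mul_zero]
    exact Finset.sum_nonneg fun i _ => by positivity

/-! ## The inverse -/

/-- `exp(-e |q|² / 2) U`. -/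
def gu [FiniteDimensional ℝ E] (ce : ContDiff ℝ ∞ e) (pe : ∀ p, 0 < e p) {K : Set P} (hK : IsCompact K) {U : E → ℝ}
    (cU : ContDiff ℝ ∞ U) (hU : ∀ m : ℕ, ∃ C, ∀ z, ‖iteratedFDeriv ℝ m U z‖ ≤ C)
    (h0 : ∀ z, π z ∉ K → U z = 0) : SW π where
  fn z := Real.exp ((ps F e ce : E → ℝ) z) * U z
  cd := (Real.contDiff_exp.comp (scd _)).mul cU
  cs := ⟨K, hK, fun z hz => by rw [h0 z hz, mul_zero]⟩
  rd := GU_rd F ce pe hK cU hU h0

theorem fd_ps (ce : ContDiff ℝ ∞ e) (k : ι) (z : E) :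
    fderiv ℝ (ps F e ce : E → ℝ) z (F.a k) = -(e (π z) * F.q k z) := by
  have h1 : (fderiv ℝ (ps F e ce : E → ℝ) z (F.a k)) =
      (ds (F.a k) (ps F e ce) : E → ℝ) z := rfl
  have h2 : ds (F.a k) (ps F e ce) = -(bs e ce * ln (F.q k)) := by
    rw [ps, map_smul, ds_mul, ds_bs_zero e ce (F.ap k), map_sum, zero_mul, zero_add]
    have h3 : ∀ i, ds (F.a k) (ln (F.q i) * ln (F.q i) : Mu π) =
        if k = i then (2 : ℝ) • ln (F.q i) else 0 := by
      intro i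
      rw [ds_mul, ds_ln, F.aq]
      by_cases h : k = i
      · simp only [if_pos h, map_one, one_mul, mul_one, two_smul]
      · simp only [if_neg h, map_zero, zero_mul, mul_zero, add_zero]
    simp only [h3]
    rw [Finset.sum_ite_eq Finset.univ k, if_pos (Finset.mem_univ k), mul_smul_comm, smul_smul]
    norm_num
  rw [h1, h2]
  rfl

theorem fd_gu (ce : ContDiff ℝ ∞ e) {U : E → ℝ} (cU : ContDiff ℝ ∞ U) (k : ι) (z : E) :
    fderiv ℝ (fun z => Real.exp ((ps F e ce : E → ℝ) z) * U z) z (F.a k) =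
      Real.exp ((ps F e ce : E → ℝ) z) * (fa F U k z - e (π z) * F.q k z * U z) := by
  have h1 : HasFDerivAt (ps F e ce : E → ℝ) _ z := (sdf (ps F e ce) z).hasFDerivAt
  have h2 : HasFDerivAt U _ z := ((cU.differentiable (by simp)) z).hasFDerivAt
  have h3 := h1.exp.mul h2
  have h4 : fderiv ℝ (fun z => Real.exp ((ps F e ce : E → ℝ) z) * U z) z = _ := h3.fderiv
  rw [h4]
  simp only [_root_.add_apply, _root_.smul_apply, smul_eq_mul]
  rw [fd_ps]
  unfold fa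
  ring

/-- **The inverse of `B₂`**, as functions. -/
theorem b2_fn (hn : 3 ≤ Fintype.card ι) (ce : ContDiff ℝ ∞ e) (pe : ∀ p, 0 < e p)
    (hκ : ContDiff ℝ ∞ κ) (hκe : ∀ p, κ p ^ 2 * (2 * e p) = 1) {c : E → ℝ} (cc : ContDiff ℝ ∞ c)
    (sc : HasCompactSupport c) : ∃ U : E → ℝ, ContDiff ℝ ∞ U ∧
      (∀ m : ℕ, ∃ C, ∀ z, ‖iteratedFDeriv ℝ m U z‖ ≤ C) ∧
      (∀ z, π z ∉ π '' tsupport c → U z = 0) ∧
      ∀ z, Real.exp ((ps F e ce : E → ℝ) z) *
        (2 * e (π z) * ∑ k, F.q k z * fa F U k z - ∑ k, fa F (fa F U k) k z +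
          ((Fintype.card ι : ℝ) - 2) * e (π z) * U z) = c z := by
  set g : E → ℝ := fun z => (2 * e (π z) * gZ ι)⁻¹ *
    (Real.exp (-(ps F e ce : E → ℝ) z) * c z) with hg
  have hZ := gZ_pos (ι := ι)
  have cg : ContDiff ℝ ∞ g := by
    refine ContDiff.mul ?_ ((Real.contDiff_exp.comp (scd (ps F e ce)).neg).mul cc)
    refine ContDiff.inv ((contDiff_const.mul (ce.comp π.contDiff)).mul contDiff_const) fun z => ?_
    have := pe (π z)
    positivity
  have sg : HasCompactSupport g := by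
    rw [hg]
    exact (sc.mul_left).mul_left
  have hg0 : ∀ z, π z ∉ π '' tsupport c → g z = 0 := by
    intro z hz
    have : c z = 0 := image_eq_zero_of_notMem_tsupport fun h => hz ⟨z, h, rfl⟩
    rw [hg]
    simp only [this, mul_zero]
  have hn' : (3 : ℝ) ≤ Fintype.card ι := by exact_mod_cast hn
  set α : ℝ := ((Fintype.card ι : ℝ) - 4) / 2 with hα
  have hα1 : 0 < α + 1 := by rw [hα]; linarith
  have hα' : -1 < α := by linarith
  refine ⟨Im F κ α g 0, Im_sm F hκ cg sg 0 hα', Im_bd F hκ cg sg 0 hα',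
    fun z hz => Im_off F hg0 0 z hz, fun z => ?_⟩
  have u1 : ∀ k, fa F (Im F κ α g 0) k = Im F κ α (fa F g k) 1 := fun k =>
    funext fun z => Im_dir F hκ cg sg 0 hα' k z
  have u2 : ∀ k, fa F (Im F κ α (fa F g k) 1) k = Im F κ α (fa F (fa F g k) k) 2 := fun k =>
    funext fun z => Im_dir F hκ (fa_sm F cg k) (fa_cs F sg k) 1 hα' k z
  simp only [u1, u2]
  have key := meh F hκ cg sg hα1 z
  have h1 := hκe (π z)
  have h2 : 2 * e (π z) * ∑ k, F.q k z * Im F κ α (fa F g k) 1 z -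
      ∑ k, Im F κ α (fa F (fa F g k) k) 2 z +
      ((Fintype.card ι : ℝ) - 2) * e (π z) * Im F κ α g 0 z = 2 * e (π z) * (gZ ι * g z) := by
    rw [← key]
    have h3 : α + 1 = ((Fintype.card ι : ℝ) - 2) / 2 := by rw [hα]; ring
    rw [h3]
    linear_combination (∑ k, Im F κ α (fa F (fa F g k) k) 2 z) * h1
  rw [h2, hg]
  have h4 := pe (π z)
  simp only [Real.exp_neg]
  have h5 := Real.exp_pos ((ps F e ce : E → ℝ) z)
  field_simp

/-- **The inverse of `B₂`.** -/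
theorem b2_inv [FiniteDimensional ℝ E] (hn : 3 ≤ Fintype.card ι) (E₀ : ℝ) (hE : 0 < E₀) (l φ : P → ℝ)
    (cl : ContDiff ℝ ∞ l) (cφ : ContDiff ℝ ∞ φ) {c : E → ℝ} (cc : ContDiff ℝ ∞ c)
    (sc : HasCompactSupport c) : ∃ f : SW π, (∀ z, π z ∉ π '' tsupport c → f.fn z = 0) ∧
      (∑ k, (F.dat E₀ hE l φ cl cφ).Ds k * (F.dat E₀ hE l φ cl cφ).D k +
        ((Fintype.card ι : ℝ) - 2) • (F.dat E₀ hE l φ cl cφ).EE) f = tst c cc sc := by
  have ce : ContDiff ℝ ∞ fun p => E₀ * Real.exp (2 * l p) := cexp cl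
  have pe : ∀ p, 0 < E₀ * Real.exp (2 * l p) := fun p => mul_pos hE (Real.exp_pos _)
  have hκ : ContDiff ℝ ∞ fun p => (Real.sqrt (2 * E₀))⁻¹ * Real.exp (-1 * l p) := cexp cl
  have hκe : ∀ p, ((Real.sqrt (2 * E₀))⁻¹ * Real.exp (-1 * l p)) ^ 2 *
      (2 * (E₀ * Real.exp (2 * l p))) = 1 := by
    intro p
    have h1 : Real.sqrt (2 * E₀) ^ 2 = 2 * E₀ := Real.sq_sqrt (by positivity)
    have h2 : Real.exp (-1 * l p) ^ 2 * Real.exp (2 * l p) = 1 := by
      rw [← Real.exp_nat_mul, ← Real.exp_add]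
      have : (2 : ℕ) * (-1 * l p) + 2 * l p = 0 := by push_cast; ring
      rw [this, Real.exp_zero]
    rw [mul_pow, inv_pow, h1]
    have h3 : (2 * E₀)⁻¹ * (2 * E₀) = 1 := inv_mul_cancel₀ (by positivity)
    linear_combination (2 * E₀)⁻¹ * (2 * E₀) * h2 + h3
  obtain ⟨U, cU, bU, oU, hU⟩ := b2_fn F hn ce pe hκ hκe cc sc
  have hK : IsCompact (π '' tsupport c) := sc.isCompact.image π.continuous
  refine ⟨gu F ce pe hK cU bU oU, fun z hz => ?_, ?_⟩
  · change Real.exp ((ps F _ ce : E → ℝ) z) * U z = 0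
    rw [oU z hz, mul_zero]
  set S := F.dat E₀ hE l φ cl cφ with hS
  set e : P → ℝ := fun p => E₀ * Real.exp (2 * l p) with he
  -- the first derivative
  have hD : ∀ k, (S.D k (gu F ce pe hK cU bU oU)).fn =
      fun z => Real.exp ((ps F e ce : E → ℝ) z) * fa F U k z := by
    intro k
    funext z
    change fderiv ℝ (fun z => Real.exp ((ps F e ce : E → ℝ) z) * U z) z (F.a k) +
      e (π z) * F.q k z * (Real.exp ((ps F e ce : E → ℝ) z) * U z) = _
    rw [fd_gu F ce cU]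
    ring
  have hDs : ∀ k z, (S.Ds k (S.D k (gu F ce pe hK cU bU oU))).fn z =
      Real.exp ((ps F e ce : E → ℝ) z) *
        (2 * e (π z) * (F.q k z * fa F U k z) - fa F (fa F U k) k z) := by
    intro k z
    change e (π z) * F.q k z * (S.D k (gu F ce pe hK cU bU oU)).fn z -
      fderiv ℝ (S.D k (gu F ce pe hK cU bU oU)).fn z (F.a k) = _
    rw [hD k, fd_gu F ce (fa_sm F cU k)]
    ring
  ext z
  have h1 : ((∑ k, S.Ds k * S.D k + ((Fintype.card ι : ℝ) - 2) • S.EE)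
      (gu F ce pe hK cU bU oU)).fn z = ∑ k, (S.Ds k (S.D k (gu F ce pe hK cU bU oU))).fn z +
      ((Fintype.card ι : ℝ) - 2) * (e (π z) * (Real.exp ((ps F e ce : E → ℝ) z) * U z)) := by
    rw [LinearMap.add_apply, LinearMap.sum_apply]
    have h2 : (∑ k, (S.Ds k * S.D k) (gu F ce pe hK cU bU oU)).fn z =
        ∑ k, (S.Ds k (S.D k (gu F ce pe hK cU bU oU))).fn z := by
      have h3 : (∑ k, (S.Ds k * S.D k) (gu F ce pe hK cU bU oU)).fn =
          ∑ k, (S.Ds k (S.D k (gu F ce pe hK cU bU oU))).fn := by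
        have := map_sum (SW.fnHom (π := π)) (fun k => (S.Ds k * S.D k) (gu F ce pe hK cU bU oU))
          Finset.univ
        exact this
      rw [h3, Finset.sum_apply]
    rw [SW.add_fn, h2]
    rfl
  rw [h1, tst_fn, ← hU z]
  simp only [hDs]
  rw [← Finset.mul_sum, Finset.sum_sub_distrib, ← Finset.mul_sum]
  ring

end Vale.Agent.P088.R2.H961.S
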