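import Mathlib.Analysis.Calculus.ContDiff.Bounds
import Mathlib.Analysis.Calculus.FDeriv.Symmetric
import Mathlib.Analysis.Calculus.LineDeriv.IntegrationByParts
import Mathlib.Analysis.SpecialFunctions.JapaneseBracket
import Mathlib.Algebra.Module.LinearMap.End
import Mathlib.Algebra.Algebra.Subalgebra.Basic
import Mathlib.Tactic

/-!
# The algebra of differential operators on functions which decrease rapidly

`π : E → P` is linear. `SW π` is the space of smooth functions on `E` which vanish outside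
`π⁻¹ K` for some compact `K` and which decrease rapidly with all derivatives; `Mu π` is the
algebra of smooth functions with moderate growth over compact subsets of `P`. `dv v` (directional
derivative) and `ml g` (multiplication) are elements of `Op π = Module.End ℝ (SW π)`; `ip` is the
`L²` product and `Adj A B` says that `B` is the formal adjoint of `A`.

(The same interface as `R2/H464/EP/Ops.lean`, where the functions have compact support.)
-/

open MeasureTheory Set
open scoped ContDiff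

noncomputable section

namespace Vale.Agent.P088.R2.H961.S

variable {E P : Type} [NormedAddCommGroup E] [NormedSpace ℝ E] [NormedAddCommGroup P]
  [NormedSpace ℝ P]

/-- Moderate growth over compact sets. -/
def Mg (π : E →L[ℝ] P) (g : E → ℝ) : Prop :=
  ∀ K : Set P, IsCompact K → ∀ m : ℕ, ∃ (k : ℕ) (C : ℝ), ∀ z, π z ∈ K →
    ‖iteratedFDeriv ℝ m g z‖ ≤ C * (1 + ‖z‖) ^ k

/-- Rapid decrease. -/
def Rd (f : E → ℝ) : Prop :=
  ∀ k m : ℕ, ∃ C : ℝ, ∀ z, (1 + ‖z‖) ^ k * ‖iteratedFDeriv ℝ m f z‖ ≤ C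

omit [NormedSpace ℝ E] in
theorem one_le_n (z : E) : 1 ≤ 1 + ‖z‖ := by linarith [norm_nonneg z]

omit [NormedSpace ℝ E] in
theorem pow_mono {k l : ℕ} (h : k ≤ l) (z : E) : (1 + ‖z‖) ^ k ≤ (1 + ‖z‖) ^ l :=
  pow_le_pow_right₀ (one_le_n z) h

/-- A uniform version of the bounds up to a given order. -/
theorem Mg.unif {π : E →L[ℝ] P} {g : E → ℝ} (h : Mg π g) {K : Set P} (hK : IsCompact K) (m : ℕ) :
    ∃ (k : ℕ) (C : ℝ), 0 ≤ C ∧ ∀ i ≤ m, ∀ z, π z ∈ K →
      ‖iteratedFDeriv ℝ i g z‖ ≤ C * (1 + ‖z‖) ^ k := by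
  choose k C hC using fun i => h K hK i
  refine ⟨(Finset.range (m + 1)).sup k, ∑ i ∈ Finset.range (m + 1), |C i|,
    Finset.sum_nonneg fun _ _ => abs_nonneg _, fun i hi z hz => ?_⟩
  have him : i ∈ Finset.range (m + 1) := Finset.mem_range.2 (by omega)
  calc ‖iteratedFDeriv ℝ i g z‖ ≤ C i * (1 + ‖z‖) ^ k i := hC i z hz
    _ ≤ |C i| * (1 + ‖z‖) ^ k i := by
        gcongr
        exact le_abs_self _
    _ ≤ (∑ i ∈ Finset.range (m + 1), |C i|) * (1 + ‖z‖) ^ (Finset.range (m + 1)).sup k :=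
        mul_le_mul (Finset.single_le_sum (f := fun i => |C i|) (fun _ _ => abs_nonneg _) him)
          (pow_mono (Finset.le_sup him) z) (by positivity)
          (Finset.sum_nonneg fun _ _ => abs_nonneg _)

theorem Rd.unif {f : E → ℝ} (h : Rd f) (k m : ℕ) :
    ∃ C : ℝ, 0 ≤ C ∧ ∀ i ≤ m, ∀ z, (1 + ‖z‖) ^ k * ‖iteratedFDeriv ℝ i f z‖ ≤ C := by
  choose C hC using fun i => h k i
  refine ⟨∑ i ∈ Finset.range (m + 1), |C i|,
    Finset.sum_nonneg fun _ _ => abs_nonneg _, fun i hi z => ?_⟩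
  have him : i ∈ Finset.range (m + 1) := Finset.mem_range.2 (by omega)
  exact ((hC i z).trans (le_abs_self _)).trans
    (Finset.single_le_sum (f := fun i => |C i|) (fun _ _ => abs_nonneg _) him)

theorem Mg.add {π : E →L[ℝ] P} {f g : E → ℝ} (cf : ContDiff ℝ ∞ f) (cg : ContDiff ℝ ∞ g)
    (hf : Mg π f) (hg : Mg π g) : Mg π fun z => f z + g z := by
  intro K hK m
  obtain ⟨k, C, hC⟩ := hf K hK m
  obtain ⟨l, D, hD⟩ := hg K hK m
  refine ⟨max k l, |C| + |D|, fun z hz => ?_⟩
  have e : iteratedFDeriv ℝ m (fun z => f z + g z) z =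
      iteratedFDeriv ℝ m f z + iteratedFDeriv ℝ m g z :=
    iteratedFDeriv_add_apply (cf.contDiffAt.of_le (by exact_mod_cast le_top))
      (cg.contDiffAt.of_le (by exact_mod_cast le_top))
  rw [e]
  calc ‖iteratedFDeriv ℝ m f z + iteratedFDeriv ℝ m g z‖ ≤ C * (1 + ‖z‖) ^ k +
        D * (1 + ‖z‖) ^ l := (norm_add_le _ _).trans (add_le_add (hC z hz) (hD z hz))
    _ ≤ |C| * (1 + ‖z‖) ^ max k l + |D| * (1 + ‖z‖) ^ max k l := by
        refine add_le_add ?_ ?_
        · exact mul_le_mul (le_abs_self _) (pow_mono (le_max_left _ _) z) (by positivity)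
            (abs_nonneg _)
        · exact mul_le_mul (le_abs_self _) (pow_mono (le_max_right _ _) z) (by positivity)
            (abs_nonneg _)
    _ = _ := by ring

theorem Mg.mul {π : E →L[ℝ] P} {f g : E → ℝ} (cf : ContDiff ℝ ∞ f) (cg : ContDiff ℝ ∞ g)
    (hf : Mg π f) (hg : Mg π g) : Mg π fun z => f z * g z := by
  intro K hK m
  obtain ⟨k, C, hC0, hC⟩ := hf.unif hK m
  obtain ⟨l, D, hD0, hD⟩ := hg.unif hK m
  refine ⟨k + l, ∑ i ∈ Finset.range (m + 1), (m.choose i : ℝ) * C * D, fun z hz => ?_⟩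
  refine (norm_iteratedFDeriv_mul_le cf cg z (n := m) (by exact_mod_cast le_top)).trans ?_
  rw [Finset.sum_mul]
  refine Finset.sum_le_sum fun i hi => ?_
  have hi' : i ≤ m := by have := Finset.mem_range.1 hi; omega
  calc (m.choose i : ℝ) * ‖iteratedFDeriv ℝ i f z‖ * ‖iteratedFDeriv ℝ (m - i) g z‖
      ≤ (m.choose i : ℝ) * (C * (1 + ‖z‖) ^ k) * (D * (1 + ‖z‖) ^ l) := by
        gcongr
        · exact hC i hi' z hz
        · exact hD (m - i) (Nat.sub_le _ _) z hz
    _ = (m.choose i : ℝ) * C * D * (1 + ‖z‖) ^ (k + l) := by rw [pow_add]; ring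

theorem Mg.const (π : E →L[ℝ] P) (r : ℝ) : Mg π fun _ => r := by
  intro K _ m
  refine ⟨0, |r|, fun z _ => ?_⟩
  rcases Nat.eq_zero_or_pos m with rfl | hm
  · simp
  · rw [iteratedFDeriv_const_of_ne (by omega)]
    simp

/-- The multipliers. -/
def Mu (π : E →L[ℝ] P) : Subalgebra ℝ (E → ℝ) where
  carrier := {f | ContDiff ℝ ∞ f ∧ Mg π f}
  mul_mem' hf hg := ⟨hf.1.mul hg.1, Mg.mul hf.1 hg.1 hf.2 hg.2⟩
  add_mem' hf hg := ⟨hf.1.add hg.1, Mg.add hf.1 hg.1 hf.2 hg.2⟩
  algebraMap_mem' r := ⟨contDiff_const, Mg.const π r⟩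

/-- The functions. -/
@[ext] structure SW (π : E →L[ℝ] P) where
  /-- the function -/
  fn : E → ℝ
  cd : ContDiff ℝ ∞ fn
  cs : ∃ K : Set P, IsCompact K ∧ ∀ z, π z ∉ K → fn z = 0
  rd : Rd fn

variable {π : E →L[ℝ] P}

theorem Rd.zero : Rd (fun _ : E => (0 : ℝ)) := fun k m => ⟨0, fun z => by
  have : iteratedFDeriv ℝ m (fun _ : E => (0 : ℝ)) z = 0 := by
    have := iteratedFDeriv_fun_zero (𝕜 := ℝ) (E := E) (F := ℝ) (n := m)
    rw [this]; rfl
  rw [this]; simp⟩

theorem Rd.add {f g : E → ℝ} (cf : ContDiff ℝ ∞ f) (cg : ContDiff ℝ ∞ g)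
    (hf : Rd f) (hg : Rd g) : Rd fun z => f z + g z := by
  intro k m
  obtain ⟨C, hC⟩ := hf k m
  obtain ⟨D, hD⟩ := hg k m
  refine ⟨C + D, fun z => ?_⟩
  have e : iteratedFDeriv ℝ m (fun z => f z + g z) z =
      iteratedFDeriv ℝ m f z + iteratedFDeriv ℝ m g z :=
    iteratedFDeriv_add_apply (cf.contDiffAt.of_le (by exact_mod_cast le_top))
      (cg.contDiffAt.of_le (by exact_mod_cast le_top))
  rw [e]
  calc (1 + ‖z‖) ^ k * ‖iteratedFDeriv ℝ m f z + iteratedFDeriv ℝ m g z‖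
      ≤ (1 + ‖z‖) ^ k * (‖iteratedFDeriv ℝ m f z‖ + ‖iteratedFDeriv ℝ m g z‖) := by
        gcongr
        exact norm_add_le _ _
    _ = (1 + ‖z‖) ^ k * ‖iteratedFDeriv ℝ m f z‖ + (1 + ‖z‖) ^ k * ‖iteratedFDeriv ℝ m g z‖ := by
        ring
    _ ≤ C + D := add_le_add (hC z) (hD z)

/-- A product of a multiplier and a function, the estimate. -/
theorem Rd.mul {f g : E → ℝ} (cg : ContDiff ℝ ∞ g) (cf : ContDiff ℝ ∞ f)
    (hg : Mg π g) (hf : Rd f) {K : Set P} (hK : IsCompact K)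
    (h0 : ∀ z, π z ∉ K → f z = 0) : Rd fun z => g z * f z := by
  intro k m
  obtain ⟨l, D, hD0, hD⟩ := hg.unif hK m
  obtain ⟨C, hC0, hC⟩ := hf.unif (k + l) m
  refine ⟨∑ i ∈ Finset.range (m + 1), (m.choose i : ℝ) * D * C, fun z => ?_⟩
  by_cases hz : π z ∈ K
  · have h1 := norm_iteratedFDeriv_mul_le cg cf z (n := m) (by exact_mod_cast le_top)
    calc (1 + ‖z‖) ^ k * ‖iteratedFDeriv ℝ m (fun z => g z * f z) z‖
        ≤ (1 + ‖z‖) ^ k * ∑ i ∈ Finset.range (m + 1), (m.choose i : ℝ) *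
          ‖iteratedFDeriv ℝ i g z‖ * ‖iteratedFDeriv ℝ (m - i) f z‖ := by gcongr
      _ = ∑ i ∈ Finset.range (m + 1), (m.choose i : ℝ) *
          ‖iteratedFDeriv ℝ i g z‖ * ((1 + ‖z‖) ^ k * ‖iteratedFDeriv ℝ (m - i) f z‖) := by
          rw [Finset.mul_sum]
          exact Finset.sum_congr rfl fun i _ => by ring
      _ ≤ ∑ i ∈ Finset.range (m + 1), (m.choose i : ℝ) *
          (D * (1 + ‖z‖) ^ l) * ((1 + ‖z‖) ^ k * ‖iteratedFDeriv ℝ (m - i) f z‖) := by
          refine Finset.sum_le_sum fun i hi => ?_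
          have hi' : i ≤ m := by have := Finset.mem_range.1 hi; omega
          gcongr
          exact hD i hi' z hz
      _ = ∑ i ∈ Finset.range (m + 1), (m.choose i : ℝ) * D *
          ((1 + ‖z‖) ^ (k + l) * ‖iteratedFDeriv ℝ (m - i) f z‖) :=
          Finset.sum_congr rfl fun i _ => by rw [pow_add]; ring
      _ ≤ ∑ i ∈ Finset.range (m + 1), (m.choose i : ℝ) * D * C := by
          refine Finset.sum_le_sum fun i hi => ?_
          gcongr
          exact hC (m - i) (Nat.sub_le _ _) z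
  · have hn : {w : E | π w ∉ K} ∈ nhds z :=
      (hK.isClosed.preimage π.continuous).isOpen_compl.mem_nhds hz
    have h1 : (fun z => g z * f z) =ᶠ[nhds z] fun _ => 0 := by
      filter_upwards [hn] with w hw
      rw [h0 w hw, mul_zero]
    have h2 : iteratedFDeriv ℝ m (fun z => g z * f z) z = 0 := by
      rw [(h1.iteratedFDeriv ℝ m).eq_of_nhds]
      have := iteratedFDeriv_fun_zero (𝕜 := ℝ) (E := E) (F := ℝ) (n := m)
      rw [this]; rfl
    rw [h2, norm_zero, mul_zero]
    exact Finset.sum_nonneg fun i _ => by positivity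

/-- The directional derivative, the estimate. -/
theorem norm_dir (f : E → ℝ) (cf : ContDiff ℝ ∞ f) (v : E) (m : ℕ) (z : E) :
    ‖iteratedFDeriv ℝ m (fun z => fderiv ℝ f z v) z‖ ≤ ‖v‖ * ‖iteratedFDeriv ℝ (m + 1) f z‖ := by
  have h1 : ContDiff ℝ ∞ (fderiv ℝ f) := cf.fderiv_right (m := ∞) (by simp)
  have h2 := norm_iteratedFDeriv_clm_apply_const (c := v) (h1.contDiffAt (x := z))
    (n := m) (by exact_mod_cast le_top)
  rw [norm_iteratedFDeriv_fderiv] at h2
  exact h2

theorem Rd.dir {f : E → ℝ} (cf : ContDiff ℝ ∞ f) (hf : Rd f) (v : E) :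
    Rd fun z => fderiv ℝ f z v := by
  intro k m
  obtain ⟨C, hC⟩ := hf k (m + 1)
  refine ⟨‖v‖ * C, fun z => ?_⟩
  calc (1 + ‖z‖) ^ k * ‖iteratedFDeriv ℝ m (fun z => fderiv ℝ f z v) z‖
      ≤ (1 + ‖z‖) ^ k * (‖v‖ * ‖iteratedFDeriv ℝ (m + 1) f z‖) := by
        gcongr; exact norm_dir f cf v m z
    _ = ‖v‖ * ((1 + ‖z‖) ^ k * ‖iteratedFDeriv ℝ (m + 1) f z‖) := by ring
    _ ≤ ‖v‖ * C := by gcongr; exact hC z

theorem Mg.dir {f : E → ℝ} (cf : ContDiff ℝ ∞ f) (hf : Mg π f) (v : E) :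
    Mg π fun z => fderiv ℝ f z v := by
  intro K hK m
  obtain ⟨k, C, hC⟩ := hf K hK (m + 1)
  refine ⟨k, ‖v‖ * C, fun z hz => ?_⟩
  calc ‖iteratedFDeriv ℝ m (fun z => fderiv ℝ f z v) z‖
      ≤ ‖v‖ * ‖iteratedFDeriv ℝ (m + 1) f z‖ := norm_dir f cf v m z
    _ ≤ ‖v‖ * (C * (1 + ‖z‖) ^ k) := by gcongr; exact hC z hz
    _ = _ := by ring

namespace SW

theorem off_dir {f : E → ℝ} {K : Set P} (hK : IsCompact K) (h0 : ∀ z, π z ∉ K → f z = 0) (v : E) :
    ∀ z, π z ∉ K → fderiv ℝ f z v = 0 := by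
  intro z hz
  have hn : {w : E | π w ∉ K} ∈ nhds z :=
    (hK.isClosed.preimage π.continuous).isOpen_compl.mem_nhds hz
  have h1 : f =ᶠ[nhds z] fun _ => 0 := by
    filter_upwards [hn] with w hw using h0 w hw
  rw [h1.fderiv_eq]; simp

instance : Zero (SW π) := ⟨⟨fun _ => 0, contDiff_const, ⟨∅, isCompact_empty, fun _ _ => rfl⟩,
  Rd.zero⟩⟩
instance : Add (SW π) := ⟨fun f g => ⟨fun z => f.fn z + g.fn z, f.cd.add g.cd, by
    obtain ⟨K, hK, h⟩ := f.cs
    obtain ⟨L, hL, h'⟩ := g.cs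
    exact ⟨K ∪ L, hK.union hL, fun z hz => by
      rw [h z fun h => hz (Or.inl h), h' z fun h => hz (Or.inr h), add_zero]⟩,
  Rd.add f.cd g.cd f.rd g.rd⟩⟩
instance : SMul ℝ (SW π) := ⟨fun c f => ⟨fun z => c * f.fn z, contDiff_const.mul f.cd, by
    obtain ⟨K, hK, h⟩ := f.cs
    exact ⟨K, hK, fun z hz => by rw [h z hz, mul_zero]⟩, by
    obtain ⟨K, hK, h⟩ := f.cs
    exact Rd.mul contDiff_const f.cd (Mg.const π c) f.rd hK h⟩⟩
instance : Neg (SW π) := ⟨fun f => ⟨fun z => - f.fn z, f.cd.neg, by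
    obtain ⟨K, hK, h⟩ := f.cs
    exact ⟨K, hK, fun z hz => by rw [h z hz, neg_zero]⟩, by
    intro k m
    obtain ⟨C, hC⟩ := f.rd k m
    refine ⟨C, fun z => ?_⟩
    have : iteratedFDeriv ℝ m (fun z => - f.fn z) z = - iteratedFDeriv ℝ m f.fn z :=
      iteratedFDeriv_neg_apply
    rw [this, norm_neg]; exact hC z⟩⟩
instance : Sub (SW π) := ⟨fun f g => ⟨fun z => f.fn z - g.fn z, f.cd.sub g.cd, by
    obtain ⟨K, hK, h⟩ := f.cs
    obtain ⟨L, hL, h'⟩ := g.cs
    exact ⟨K ∪ L, hK.union hL, fun z hz => by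
      rw [h z fun h => hz (Or.inl h), h' z fun h => hz (Or.inr h), sub_zero]⟩, by
    have : Rd fun z => f.fn z + -g.fn z := Rd.add f.cd (-g).cd f.rd (-g).rd
    simpa only [sub_eq_add_neg] using this⟩⟩

theorem fn_inj : Function.Injective (SW.fn : SW π → E → ℝ) := fun _ _ h => SW.ext h

instance : SMul ℕ (SW π) := ⟨fun c f => ((c : ℝ) • f : SW π)⟩
instance : SMul ℤ (SW π) := ⟨fun c f => ((c : ℝ) • f : SW π)⟩

instance : AddCommGroup (SW π) :=
  fn_inj.addCommGroup _ rfl (fun _ _ => rfl) (fun _ => rfl) (fun _ _ => rfl)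
    (fun f n => by funext z; exact (nsmul_eq_mul n (f.fn z)).symm)
    (fun f n => by funext z; exact (zsmul_eq_mul (f.fn z) n).symm)

/-- `fn` as an additive map. -/
def fnHom : SW π →+ (E → ℝ) where
  toFun := SW.fn
  map_zero' := rfl
  map_add' _ _ := rfl

instance : Module ℝ (SW π) := fn_inj.module ℝ fnHom (fun _ _ => rfl)

@[simp] theorem add_fn (f g : SW π) (z : E) : (f + g).fn z = f.fn z + g.fn z := rfl
@[simp] theorem sub_fn (f g : SW π) (z : E) : (f - g).fn z = f.fn z - g.fn z := rfl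
@[simp] theorem neg_fn (f : SW π) (z : E) : (-f).fn z = - f.fn z := rfl
@[simp] theorem zero_fn (z : E) : (0 : SW π).fn z = 0 := rfl
@[simp] theorem smul_fn (c : ℝ) (f : SW π) (z : E) : (c • f).fn z = c * f.fn z := rfl

theorem df (f : SW π) : Differentiable ℝ f.fn := f.cd.differentiable (by simp)

theorem ct (f : SW π) : Continuous f.fn := f.cd.continuous

end SW

theorem scd (f : Mu π) : ContDiff ℝ ∞ (f : E → ℝ) := f.2.1

theorem sdf (f : Mu π) : Differentiable ℝ (f : E → ℝ) := (scd f).differentiable (by simp)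

theorem sct (f : Mu π) : Continuous (f : E → ℝ) := (scd f).continuous

/-- Operators. -/
abbrev Op (π : E →L[ℝ] P) := Module.End ℝ (SW π)

/-- The directional derivative of a function. -/
def dv (v : E) : Op π where
  toFun f := ⟨fun z => fderiv ℝ f.fn z v,
    (f.cd.fderiv_right (m := ∞) (by simp)).clm_apply contDiff_const, by
      obtain ⟨K, hK, h⟩ := f.cs
      exact ⟨K, hK, SW.off_dir hK h v⟩, Rd.dir f.cd f.rd v⟩
  map_add' f g := by
    ext z
    change fderiv ℝ (f.fn + g.fn) z v = _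
    rw [fderiv_add (f.df z) (g.df z)]; rfl
  map_smul' c f := by
    ext z
    change fderiv ℝ (c • f.fn) z v = _
    rw [fderiv_const_smul (f.df z)]; rfl

/-- The directional derivative of a multiplier. -/
def ds (v : E) : Mu π →ₗ[ℝ] Mu π where
  toFun f := ⟨fun z => fderiv ℝ (f : E → ℝ) z v,
    ((scd f).fderiv_right (m := ∞) (by simp)).clm_apply contDiff_const, Mg.dir f.2.1 f.2.2 v⟩
  map_add' f g := by
    ext z
    change fderiv ℝ ((f : E → ℝ) + (g : E → ℝ)) z v = _
    rw [fderiv_add (sdf f z) (sdf g z)]; rfl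
  map_smul' c f := by
    ext z
    change fderiv ℝ (c • (f : E → ℝ)) z v = _
    rw [fderiv_const_smul (sdf f z)]; rfl

/-- Multiplication by a multiplier. -/
def ml : Mu π →ₐ[ℝ] Op π where
  toFun g :=
    { toFun := fun f => ⟨fun z => (g : E → ℝ) z * f.fn z, (scd g).mul f.cd, by
          obtain ⟨K, hK, h⟩ := f.cs
          exact ⟨K, hK, fun z hz => by rw [h z hz, mul_zero]⟩, by
          obtain ⟨K, hK, h⟩ := f.cs
          exact Rd.mul (scd g) f.cd g.2.2 f.rd hK h⟩
      map_add' := fun f h => by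
        ext z; change (g : E → ℝ) z * (f.fn z + h.fn z) = _; rw [mul_add]; rfl
      map_smul' := fun c f => by
        ext z
        change (g : E → ℝ) z * (c * f.fn z) = c * ((g : E → ℝ) z * f.fn z); ring }
  map_one' := by ext f z; change (1 : ℝ) * f.fn z = _; simp
  map_mul' g h := by
    ext f z
    change ((g : E → ℝ) z * (h : E → ℝ) z) * f.fn z =
      (g : E → ℝ) z * ((h : E → ℝ) z * f.fn z)
    ring
  map_zero' := by ext f z; change (0 : ℝ) * f.fn z = _; simp
  map_add' g h := by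
    ext f z
    change ((g : E → ℝ) z + (h : E → ℝ) z) * f.fn z =
      (g : E → ℝ) z * f.fn z + (h : E → ℝ) z * f.fn z
    ring
  commutes' r := by
    ext f z
    change r * f.fn z = r * f.fn z
    rfl

@[simp] theorem dv_apply (v : E) (f : SW π) (z : E) : (dv v f).fn z = fderiv ℝ f.fn z v := rfl

@[simp] theorem ds_apply (v : E) (f : Mu π) (z : E) :
    (ds v f : E → ℝ) z = fderiv ℝ (f : E → ℝ) z v := rfl

@[simp] theorem ml_apply (g : Mu π) (f : SW π) (z : E) :
    (ml g f).fn z = (g : E → ℝ) z * f.fn z := rfl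

theorem dv_add (v w : E) : (dv (v + w) : Op π) = dv v + dv w := by
  ext f z; simp [LinearMap.add_apply]

theorem dv_smul (c : ℝ) (v : E) : (dv (c • v) : Op π) = c • dv v := by
  ext f z; simp [LinearMap.smul_apply]

theorem dv_sub (v w : E) : (dv (v - w) : Op π) = dv v - dv w := by
  ext f z; simp [LinearMap.sub_apply]

theorem ds_add (v w : E) : (ds (v + w) : Mu π →ₗ[ℝ] Mu π) = ds v + ds w := by
  ext f z; simp [LinearMap.add_apply]

theorem ds_smul (c : ℝ) (v : E) (f : Mu π) : ds (c • v) f = c • ds v f := by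
  ext z
  change fderiv ℝ (f : E → ℝ) z (c • v) = c * fderiv ℝ (f : E → ℝ) z v
  rw [map_smul, smul_eq_mul]

/-- The Leibniz rule. -/
theorem ds_mul (v : E) (f g : Mu π) : ds v (f * g) = ds v f * g + f * ds v g := by
  ext z
  change fderiv ℝ ((f : E → ℝ) * (g : E → ℝ)) z v =
    fderiv ℝ (f : E → ℝ) z v * (g : E → ℝ) z + (f : E → ℝ) z * fderiv ℝ (g : E → ℝ) z v
  rw [fderiv_mul (sdf f z) (sdf g z)]
  simp only [add_apply, smul_apply, smul_eq_mul]
  ring

/-- The commutator of a derivative and a multiplication. -/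
theorem dv_ml (v : E) (g : Mu π) : dv v * ml g = ml g * dv v + ml (ds v g) := by
  ext f z
  change fderiv ℝ (fun y => (g : E → ℝ) y * f.fn y) z v =
    (g : E → ℝ) z * fderiv ℝ f.fn z v + fderiv ℝ (g : E → ℝ) z v * f.fn z
  rw [fderiv_fun_mul (sdf g z) (f.df z)]
  simp only [add_apply, smul_apply, smul_eq_mul]
  ring

/-- Directional derivatives commute. -/
theorem dv_comm (v w : E) : dv v * dv w = (dv w * dv v : Op π) := by
  ext f z
  change fderiv ℝ (fun y => fderiv ℝ f.fn y w) z v =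
    fderiv ℝ (fun y => fderiv ℝ f.fn y v) z w
  have h2 : ContDiffAt ℝ 2 f.fn z := (f.cd.of_le (by norm_cast)).contDiffAt
  have hs := h2.isSymmSndFDerivAt (by simp)
  have hd : DifferentiableAt ℝ (fderiv ℝ f.fn) z :=
    ((f.cd.fderiv_right (m := ∞) (by simp)).differentiable (by simp)) z
  rw [fderiv_clm_apply hd (differentiableAt_const _),
    fderiv_clm_apply hd (differentiableAt_const _)]
  simpa using hs.eq v w

theorem ds_comm (v w : E) (f : Mu π) : ds v (ds w f) = ds w (ds v f) := by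
  ext z
  change fderiv ℝ (fun y => fderiv ℝ (f : E → ℝ) y w) z v =
    fderiv ℝ (fun y => fderiv ℝ (f : E → ℝ) y v) z w
  have h2 : ContDiffAt ℝ 2 (f : E → ℝ) z := ((scd f).of_le (by norm_cast)).contDiffAt
  have hs := h2.isSymmSndFDerivAt (by simp)
  have hd : DifferentiableAt ℝ (fderiv ℝ (f : E → ℝ)) z :=
    (((scd f).fderiv_right (m := ∞) (by simp)).differentiable (by simp)) z
  rw [fderiv_clm_apply hd (differentiableAt_const _),
    fderiv_clm_apply hd (differentiableAt_const _)]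
  simpa using hs.eq v w

@[simp] theorem ds_one (v : E) : ds v (1 : Mu π) = 0 := by
  ext z
  change fderiv ℝ (fun _ : E => (1 : ℝ)) z v = 0
  simp

/-- Multiplications commute. -/
theorem mlc (f h : Mu π) : ml f * ml h = (ml h * ml f : Op π) := by
  rw [← map_mul, ← map_mul, mul_comm]

/-! ## Examples of multipliers and functions -/

/-- Smooth functions on the base. -/
theorem Mg.base {h : P → ℝ} (ch : ContDiff ℝ ∞ h) : Mg π fun z => h (π z) := by
  intro K hK m
  have hc : Continuous (iteratedFDeriv ℝ m h) :=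
    ch.continuous_iteratedFDeriv (m := m) (by exact_mod_cast le_top)
  obtain ⟨C, hC⟩ := hK.exists_bound_of_continuousOn hc.continuousOn
  refine ⟨0, C * ‖π‖ ^ m, fun z hz => ?_⟩
  have h1 : iteratedFDeriv ℝ m (fun z => h (π z)) z =
      (iteratedFDeriv ℝ m h (π z)).compContinuousLinearMap fun _ => π :=
    π.iteratedFDeriv_comp_right ch z (by exact_mod_cast le_top)
  rw [h1, pow_zero, mul_one]
  refine (ContinuousMultilinearMap.norm_compContinuousLinearMap_le _ _).trans ?_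
  simp only [Finset.prod_const, Finset.card_univ, Fintype.card_fin]
  gcongr
  exact hC _ hz

/-- A smooth function on the base as a multiplier. -/
def bs (h : P → ℝ) (ch : ContDiff ℝ ∞ h) : Mu π :=
  ⟨fun z => h (π z), ch.comp π.contDiff, Mg.base ch⟩

/-- Linear functions. -/
theorem Mg.lin (q : E →L[ℝ] ℝ) : Mg π fun z => q z := by
  intro K _ m
  rcases m with _ | _ | m
  · refine ⟨1, ‖q‖, fun z _ => ?_⟩
    rw [norm_iteratedFDeriv_zero, pow_one]
    exact (q.le_opNorm z).trans (by gcongr; linarith [norm_nonneg z])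
  · refine ⟨0, ‖q‖, fun z _ => ?_⟩
    have : ‖iteratedFDeriv ℝ 1 (fun z => q z) z‖ = ‖fderiv ℝ (fun z => q z) z‖ :=
      norm_iteratedFDeriv_one (𝕜 := ℝ) (f := fun z => q z)
    rw [zero_add, this, ContinuousLinearMap.fderiv]
    simp
  · refine ⟨0, 0, fun z _ => ?_⟩
    have h1 : ‖iteratedFDeriv ℝ (m + 1 + 1) (fun z => q z) z‖ =
        ‖iteratedFDeriv ℝ (m + 1) (fderiv ℝ fun z => q z) z‖ :=
      (norm_iteratedFDeriv_fderiv (𝕜 := ℝ) (f := fun z => q z)).symm
    have h2 : (fderiv ℝ fun z => q z) = fun _ => q := by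
      funext z; exact q.fderiv
    rw [h1, h2, iteratedFDeriv_const_of_ne (by omega)]
    simp

/-- A linear function as a multiplier. -/
def ln (q : E →L[ℝ] ℝ) : Mu π := ⟨fun z => q z, q.contDiff, Mg.lin q⟩

/-- Test functions. -/
def tst (f : E → ℝ) (cf : ContDiff ℝ ∞ f) (cs : HasCompactSupport f) : SW π where
  fn := f
  cd := cf
  cs := ⟨π '' tsupport f, cs.isCompact.image π.continuous, fun z hz =>
    image_eq_zero_of_notMem_tsupport fun h => hz ⟨z, h, rfl⟩⟩
  rd := by
    intro k m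
    have hc : Continuous fun z => (1 + ‖z‖) ^ k * ‖iteratedFDeriv ℝ m f z‖ :=
      ((continuous_const.add continuous_norm).pow k).mul
        (cf.continuous_iteratedFDeriv (m := m) (by exact_mod_cast le_top)).norm
    have hs : HasCompactSupport fun z => (1 + ‖z‖) ^ k * ‖iteratedFDeriv ℝ m f z‖ :=
      (cs.iteratedFDeriv m).norm.mul_left
    obtain ⟨C, hC⟩ := hc.bounded_above_of_compact_support hs
    exact ⟨C, fun z => (le_abs_self _).trans (hC z)⟩

@[simp] theorem tst_fn (f : E → ℝ) (cf : ContDiff ℝ ∞ f) (cs : HasCompactSupport f) (z : E) :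
    (tst f cf cs : SW π).fn z = f z := rfl

/-! ## The `L²` product -/

variable [MeasurableSpace E] [BorelSpace E] [FiniteDimensional ℝ E]

theorem sw_int (μ : Measure E) [μ.IsAddHaarMeasure] (f : SW π) : Integrable f.fn μ := by
  obtain ⟨C, hC⟩ := f.rd (Module.finrank ℝ E + 1) 0
  have h1 : Integrable (fun z : E => (1 + ‖z‖) ^ (-((Module.finrank ℝ E : ℝ) + 1))) μ :=
    integrable_one_add_norm (by linarith)
  refine (h1.const_mul |C|).mono' f.ct.aestronglyMeasurable (Filter.Eventually.of_forall fun z => ?_)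
  have h2 := hC z
  rw [norm_iteratedFDeriv_zero] at h2
  have h3 : 0 < (1 + ‖z‖) ^ (Module.finrank ℝ E + 1) := by positivity
  have h4 : (1 + ‖z‖) ^ (-((Module.finrank ℝ E : ℝ) + 1)) =
      ((1 + ‖z‖) ^ (Module.finrank ℝ E + 1))⁻¹ := by
    rw [Real.rpow_neg (by positivity), ← Real.rpow_natCast]; push_cast; rfl
  rw [h4]
  calc ‖f.fn z‖ = ((1 + ‖z‖) ^ (Module.finrank ℝ E + 1) * ‖f.fn z‖) *
        ((1 + ‖z‖) ^ (Module.finrank ℝ E + 1))⁻¹ := by field_simp
    _ ≤ |C| * ((1 + ‖z‖) ^ (Module.finrank ℝ E + 1))⁻¹ := by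
        gcongr; exact h2.trans (le_abs_self _)

omit [MeasurableSpace E] [BorelSpace E] [FiniteDimensional ℝ E] in
/-- Functions are multipliers. -/
theorem Rd.mg {f : E → ℝ} (hf : Rd f) : Mg π f := by
  intro K _ m
  obtain ⟨C, hC⟩ := hf 0 m
  exact ⟨0, C, fun z _ => by have := hC z; rw [pow_zero, one_mul] at this; rw [pow_zero, mul_one]; exact this⟩

/-- A function as a multiplier. -/
def SW.mu (f : SW π) : Mu π := ⟨f.fn, f.cd, Rd.mg f.rd⟩

theorem integrable_mul (μ : Measure E) [μ.IsAddHaarMeasure] (f g : SW π) :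
    Integrable (fun z => f.fn z * g.fn z) μ := sw_int μ (ml f.mu g)

/-- The `L²` product. -/
def ip (μ : Measure E) [μ.IsAddHaarMeasure] : SW π →ₗ[ℝ] SW π →ₗ[ℝ] ℝ :=
  LinearMap.mk₂ ℝ (fun f g => ∫ z, f.fn z * g.fn z ∂μ)
    (fun f g h => by
      rw [← integral_add (integrable_mul μ f h) (integrable_mul μ g h)]
      refine integral_congr_ae (Filter.Eventually.of_forall fun z => ?_)
      simp only [SW.add_fn]
      ring)
    (fun c f g => by
      rw [smul_eq_mul, ← integral_const_mul]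
      refine integral_congr_ae (Filter.Eventually.of_forall fun z => ?_)
      simp only [SW.smul_fn]
      ring)
    (fun f g h => by
      rw [← integral_add (integrable_mul μ f g) (integrable_mul μ f h)]
      refine integral_congr_ae (Filter.Eventually.of_forall fun z => ?_)
      simp only [SW.add_fn]
      ring)
    (fun c f g => by
      rw [smul_eq_mul, ← integral_const_mul]
      refine integral_congr_ae (Filter.Eventually.of_forall fun z => ?_)
      simp only [SW.smul_fn]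
      ring)

theorem ip_apply (μ : Measure E) [μ.IsAddHaarMeasure] (f g : SW π) :
    ip μ f g = ∫ z, f.fn z * g.fn z ∂μ := rfl

theorem ip_comm (μ : Measure E) [μ.IsAddHaarMeasure] (f g : SW π) :
    ip μ f g = ip μ g f := by
  rw [ip_apply, ip_apply]
  exact integral_congr_ae (Filter.Eventually.of_forall fun z => mul_comm _ _)

theorem ip_self_nonneg (μ : Measure E) [μ.IsAddHaarMeasure] (f : SW π) :
    0 ≤ ip μ f f := by
  rw [ip_apply]
  exact integral_nonneg fun z => mul_self_nonneg _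

theorem ip_ml (μ : Measure E) [μ.IsAddHaarMeasure] (g : Mu π) (f h : SW π) :
    ip μ (ml g f) h = ip μ f (ml g h) := by
  rw [ip_apply, ip_apply]
  refine integral_congr_ae (Filter.Eventually.of_forall fun z => ?_)
  simp only [ml_apply]
  ring

theorem ip_dv (μ : Measure E) [μ.IsAddHaarMeasure] (v : E) (f h : SW π) :
    ip μ (dv v f) h = - ip μ f (dv v h) := by
  rw [ip_apply, ip_apply]
  have := integral_mul_fderiv_eq_neg_fderiv_mul_of_integrable (μ := μ) (f := f.fn)
    (g := h.fn) (v := v) (integrable_mul μ (dv v f) h) (integrable_mul μ f (dv v h))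
    (integrable_mul μ f h) (fun x _ => f.df x) (fun x _ => h.df x)
  simp only [dv_apply]
  linarith

theorem ip_ml_nonneg (μ : Measure E) [μ.IsAddHaarMeasure] {g : Mu π}
    (hg : ∀ z, 0 ≤ (g : E → ℝ) z) (f : SW π) : 0 ≤ ip μ (ml g f) f := by
  rw [ip_apply]
  refine integral_nonneg fun z => ?_
  simp only [ml_apply, Pi.zero_apply]
  have := mul_nonneg (hg z) (mul_self_nonneg (f.fn z))
  nlinarith [this]

/-- `B` is the formal adjoint of `A`. -/
def Adj (μ : Measure E) [μ.IsAddHaarMeasure] (A B : Op π) : Prop :=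
  ∀ f g, ip μ (A f) g = ip μ f (B g)

section
variable {μ : Measure E} [μ.IsAddHaarMeasure] {A B C D : Op π}

theorem Adj.symm (h : Adj μ A B) : Adj μ B A := fun f g => by
  rw [ip_comm, ← h, ip_comm]

theorem Adj.add (h : Adj μ A B) (h' : Adj μ C D) : Adj μ (A + C) (B + D) := fun f g => by
  simp [LinearMap.add_apply, h f g, h' f g]

theorem Adj.sub (h : Adj μ A B) (h' : Adj μ C D) : Adj μ (A - C) (B - D) := fun f g => by
  simp [LinearMap.sub_apply, h f g, h' f g]

theorem Adj.neg (h : Adj μ A B) : Adj μ (-A) (-B) := fun f g => by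
  simp [LinearMap.neg_apply, h f g]

theorem Adj.smul (c : ℝ) (h : Adj μ A B) : Adj μ (c • A) (c • B) := fun f g => by
  simp [LinearMap.smul_apply, h f g]

theorem Adj.mul (h : Adj μ A B) (h' : Adj μ C D) : Adj μ (A * C) (D * B) := fun f g => by
  simp only [Module.End.mul_apply]
  rw [h, h']

theorem Adj.sum {ι : Type*} {s : Finset ι} {A B : ι → Op π}
    (h : ∀ i ∈ s, Adj μ (A i) (B i)) : Adj μ (∑ i ∈ s, A i) (∑ i ∈ s, B i) := fun f g => by
  simp only [LinearMap.sum_apply, map_sum]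
  exact Finset.sum_congr rfl fun i hi => h i hi f g

theorem adj_zero : Adj μ (0 : Op π) 0 := fun _ _ => by simp

theorem adj_one : Adj μ (1 : Op π) 1 := fun _ _ => rfl

theorem adj_ml (g : Mu π) : Adj μ (ml g) (ml g) := ip_ml μ g

end

theorem ip_self_eq_zero (μ : Measure E) [μ.IsAddHaarMeasure]
    {f : SW π} (h : ip μ f f = 0) : f = 0 := by
  rw [ip_apply, integral_eq_zero_iff_of_nonneg (fun z => mul_self_nonneg _)
    (integrable_mul μ f f)] at h
  have h1 : (fun z => f.fn z * f.fn z) = fun _ => 0 :=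
    (Continuous.ae_eq_iff_eq μ (f.ct.mul f.ct) continuous_const).1 h
  ext z
  exact mul_self_eq_zero.1 (congrFun h1 z)

theorem adj_unique {μ : Measure E} [μ.IsAddHaarMeasure]
    {A B B' : Op π} (h : Adj μ A B) (h' : Adj μ A B') : B = B' := by
  ext1 g
  have h0 : ∀ f, ip μ f (B g - B' g) = 0 := fun f => by
    rw [map_sub, ← h f g, ← h' f g, sub_self]
  exact sub_eq_zero.1 (ip_self_eq_zero μ (h0 _))

theorem adj_eq {μ : Measure E} [μ.IsAddHaarMeasure]
    {A A' B B' : Op π} (h : Adj μ A B) (h' : Adj μ A' B') (e : A = A') : B = B' :=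
  adj_unique h (e ▸ h')

theorem adj_dv (μ : Measure E) [μ.IsAddHaarMeasure] (v : E) :
    Adj μ (dv v : Op π) (- dv v) := fun f g => by
  rw [ip_dv]; simp

end Vale.Agent.P088.R2.H961.S
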